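import Vale.Agent.P243.Transform

open MeasureTheory Set Metric Filter Topology Module Matrix
open scoped ENNReal Pointwise RealInnerProductSpace

namespace Vale.Agent.P243

/-- The matrix with columns `a k - a₀`. -/
noncomputable def simplexMatrix (a₀ : E3) (a : Fin 3 → E3) : Matrix (Fin 3) (Fin 3) ℝ :=
  Matrix.of fun i k => (a k - a₀) i

lemma continuous_det_simplex :
    Continuous fun p : E3 × (Fin 3 → E3) => (simplexMatrix p.1 p.2).det := by
  apply Continuous.matrix_det
  apply continuous_matrix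
  intro i k
  show Continuous fun p : E3 × (Fin 3 → E3) => (p.2 k - p.1) i
  have h : Continuous fun x : E3 => x i := PiLp.continuous_apply 2 _ i
  exact h.comp ((continuous_apply k).comp continuous_snd |>.sub continuous_fst)

/-- A simplex of maximal volume. -/
lemma exists_max_simplex {K : Set E3} (hK : IsCompact K) (hint : (interior K).Nonempty) :
    ∃ (a₀ : E3) (a : Fin 3 → E3), a₀ ∈ K ∧ (∀ k, a k ∈ K) ∧ (simplexMatrix a₀ a).det ≠ 0 ∧
      ∀ b₀ ∈ K, ∀ b : Fin 3 → E3, (∀ k, b k ∈ K) →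
        |(simplexMatrix b₀ b).det| ≤ |(simplexMatrix a₀ a).det| := by
  set P : Set (E3 × (Fin 3 → E3)) := K ×ˢ (Set.pi univ fun _ => K) with hP
  have hPc : IsCompact P := hK.prod (isCompact_univ_pi fun _ => hK)
  obtain ⟨p, hp⟩ := hint
  obtain ⟨δ, hδ, hball⟩ := Metric.isOpen_iff.1 isOpen_interior p hp
  set d := δ / 2 with hd
  have hdpos : 0 < d := by positivity
  let a1 : Fin 3 → E3 := fun k => p + d • (EuclideanSpace.single k (1 : ℝ) : E3)
  have ha1 : ∀ k, a1 k ∈ K := by
    intro k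
    apply interior_subset
    apply hball
    rw [mem_ball, dist_eq_norm]
    simp [a1, norm_smul, hd, abs_of_pos hδ]
    exact hδ
  have hpK : p ∈ K := interior_subset hp
  have hPne : P.Nonempty := ⟨(p, a1), hpK, fun k _ => ha1 k⟩
  have hcont : ContinuousOn (fun q : E3 × (Fin 3 → E3) => |(simplexMatrix q.1 q.2).det|) P :=
    (continuous_det_simplex.abs).continuousOn
  obtain ⟨q, hq, hmax⟩ := hPc.exists_isMaxOn hPne hcont
  have hdet1 : simplexMatrix p a1 = d • (1 : Matrix (Fin 3) (Fin 3) ℝ) := by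
    ext i k
    simp [simplexMatrix, a1, Matrix.one_apply, PiLp.single_apply]
  refine ⟨q.1, q.2, hq.1, fun k => hq.2 k (mem_univ k), ?_, ?_⟩
  · intro h0
    have h1 : |(simplexMatrix p a1).det| ≤ |(simplexMatrix q.1 q.2).det| :=
      isMaxOn_iff.1 hmax (p, a1) ⟨hpK, fun k _ => ha1 k⟩
    rw [h0, abs_zero, hdet1, Matrix.det_smul] at h1
    simp at h1
    rw [abs_of_pos hdpos] at h1
    linarith [pow_pos hdpos 3]
  · intro b₀ hb₀ b hb
    exact isMaxOn_iff.1 hmax (b₀, b) ⟨hb₀, fun k _ => hb k⟩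

lemma simplexMatrix_update (a₀ x : E3) (a : Fin 3 → E3) (j : Fin 3) :
    (simplexMatrix a₀ a).updateCol j (x - a₀).ofLp = simplexMatrix a₀ (Function.update a j x) := by
  ext i k
  by_cases h : k = j
  · subst h
    simp [simplexMatrix]
  · simp [simplexMatrix, h]

/-- Cramer's rule and the maximality of the simplex. -/
lemma coord_le_one {K : Set E3} {a₀ : E3} {a : Fin 3 → E3} (ha : ∀ k, a k ∈ K) (ha₀ : a₀ ∈ K)
    (hdet : (simplexMatrix a₀ a).det ≠ 0)
    (hmax : ∀ b₀ ∈ K, ∀ b : Fin 3 → E3, (∀ k, b k ∈ K) →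
        |(simplexMatrix b₀ b).det| ≤ |(simplexMatrix a₀ a).det|)
    {x : E3} (hx : x ∈ K) (j : Fin 3) :
    |((simplexMatrix a₀ a)⁻¹ *ᵥ (x - a₀).ofLp) j| ≤ 1 := by
  set A := simplexMatrix a₀ a with hA
  have h1 : (A⁻¹ *ᵥ (x - a₀).ofLp) j = A.det⁻¹ * (A.updateCol j (x - a₀).ofLp).det := by
    rw [Matrix.inv_def, Matrix.smul_mulVec, ← Matrix.cramer_eq_adjugate_mulVec, Pi.smul_apply,
      Matrix.cramer_apply, Ring.inverse_eq_inv', smul_eq_mul]
  rw [h1, hA, simplexMatrix_update, abs_mul, abs_inv, inv_mul_le_iff₀ (abs_pos.2 hdet), mul_one]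
  apply hmax a₀ ha₀
  intro k
  by_cases h : k = j
  · subst h; simpa using hx
  · simpa [Function.update_of_ne h] using ha k

/-- The affine normalization. -/
theorem exists_normalization {K : Set E3} (hconv : Convex ℝ K) (hcomp : IsCompact K)
    (hint : (interior K).Nonempty) :
    ∃ (T₀ : E3 ≃L[ℝ] E3) (c : E3), Normalized ((fun x => T₀ x + c) '' K) ∧
      volume.real ((fun x => T₀ x + c) '' K) ≤ 2744 := by
  obtain ⟨a₀, a, ha₀, ha, hdet, hmax⟩ := exists_max_simplex hcomp hint
  set A := simplexMatrix a₀ a with hA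
  have hunit : IsUnit A.det := isUnit_iff_ne_zero.2 hdet
  have hAA : A * A⁻¹ = 1 := Matrix.mul_nonsing_inv A hunit
  have hAA' : A⁻¹ * A = 1 := Matrix.nonsing_inv_mul A hunit
  let L : E3 ≃ₗ[ℝ] E3 :=
    { toFun := fun x => WithLp.toLp 2 ((7 : ℝ) • (A⁻¹ *ᵥ x.ofLp))
      map_add' := by
        intro x y
        simp [Matrix.mulVec_add, smul_add]
      map_smul' := by
        intro r x
        show WithLp.toLp 2 ((7 : ℝ) • (A⁻¹ *ᵥ (r • x).ofLp)) = r • WithLp.toLp 2 ((7 : ℝ) • (A⁻¹ *ᵥ x.ofLp))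
        rw [WithLp.ofLp_smul, Matrix.mulVec_smul, smul_comm]
        rfl
      invFun := fun x => WithLp.toLp 2 ((1 / 7 : ℝ) • (A *ᵥ x.ofLp))
      left_inv := by
        intro x
        simp [Matrix.mulVec_smul, Matrix.mulVec_mulVec, hAA, smul_smul]
      right_inv := by
        intro x
        simp [Matrix.mulVec_smul, Matrix.mulVec_mulVec, hAA', smul_smul] }
  let T₀ : E3 ≃L[ℝ] E3 := L.toContinuousLinearEquiv
  have hT₀ : ∀ x : E3, (T₀ x).ofLp = (7 : ℝ) • (A⁻¹ *ᵥ x.ofLp) := fun x => rfl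
  set one : E3 := WithLp.toLp 2 (fun _ => (1 : ℝ)) with hone
  set c : E3 := -T₀ a₀ - (7 / 4 : ℝ) • one with hc
  have hTform : ∀ x : E3, T₀ x + c = T₀ (x - a₀) - (7 / 4 : ℝ) • one := by
    intro x
    rw [map_sub, hc]
    abel
  have hTcoord : ∀ (x : E3) (j : Fin 3),
      (T₀ x + c) j = 7 * (A⁻¹ *ᵥ (x - a₀).ofLp) j - 7 / 4 := by
    intro x j
    rw [hTform]
    have h1 : (T₀ (x - a₀)) j = 7 * (A⁻¹ *ᵥ (x - a₀).ofLp) j := by
      have := congrFun (hT₀ (x - a₀)) j
      simpa using this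
    calc (T₀ (x - a₀) - (7 / 4 : ℝ) • one) j = (T₀ (x - a₀)) j - ((7 / 4 : ℝ) • one) j := rfl
      _ = _ := by rw [h1]; simp [hone]
  refine ⟨T₀, c, ⟨?_, ?_, ?_⟩, ?_⟩
  · -- convexity
    rintro _ ⟨x, hx, rfl⟩ _ ⟨y, hy, rfl⟩ p q hp hq hpq
    refine ⟨p • x + q • y, hconv hx hy hp hq hpq, ?_⟩
    have h : p • c + q • c = c := by rw [← add_smul, hpq, one_smul]
    show T₀ (p • x + q • y) + c = p • (T₀ x + c) + q • (T₀ y + c)
    rw [map_add, map_smul, map_smul, smul_add, smul_add]
    calc p • T₀ x + q • T₀ y + c = p • T₀ x + q • T₀ y + (p • c + q • c) := by rw [h]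
      _ = _ := by abel
  · -- compactness
    exact hcomp.image (by fun_prop)
  · -- the unit ball
    intro y hy
    rw [mem_closedBall, dist_zero_right] at hy
    have hy2 : y 0 ^ 2 + y 1 ^ 2 + y 2 ^ 2 ≤ 1 := by
      have h1 : ‖y‖ ^ 2 ≤ 1 := by
        have := norm_nonneg y
        nlinarith
      rw [EuclideanSpace.real_norm_sq_eq, Fin.sum_univ_three] at h1
      exact h1
    set z : Fin 3 → ℝ := fun k => y k / 7 + 1 / 4 with hz
    have hz0 : ∀ k, 0 ≤ z k := by
      intro k
      have h1 : |y k| ≤ 1 := by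
        have := PiLp.norm_apply_le (p := 2) y k
        rw [Real.norm_eq_abs] at this
        exact this.trans hy
      have h2 := (abs_le.1 h1).1
      simp only [hz]
      linarith
    have hzsum : z 0 + z 1 + z 2 ≤ 1 := by
      simp only [hz]
      nlinarith [sq_nonneg (y 0 - y 1), sq_nonneg (y 1 - y 2), sq_nonneg (y 0 - y 2),
        sq_nonneg (y 0 + y 1 + y 2 - 7 / 4)]
    set x : E3 := WithLp.toLp 2 (a₀.ofLp + A *ᵥ z) with hx
    have hxK : x ∈ K := by
      have hmem := hconv.sum_mem (t := Finset.univ) (w := ![1 - (z 0 + z 1 + z 2), z 0, z 1, z 2])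
        (z := ![a₀, a 0, a 1, a 2])
        (by
          intro i _
          fin_cases i
          · simpa using hzsum
          · exact hz0 0
          · exact hz0 1
          · exact hz0 2)
        (by
          simp [Fin.sum_univ_four]
          ring)
        (by
          intro i _
          fin_cases i
          · exact ha₀
          · exact ha 0
          · exact ha 1
          · exact ha 2)
      convert hmem using 1
      rw [Fin.sum_univ_four]
      ext i
      simp [hx, A, simplexMatrix, Matrix.mulVec, dotProduct, Fin.sum_univ_three]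
      ring
    refine ⟨x, hxK, ?_⟩
    ext j
    show (T₀ x + c) j = y j
    rw [hTcoord]
    have h1 : (x - a₀).ofLp = A *ᵥ z := by
      simp [hx]
    rw [h1, Matrix.mulVec_mulVec, hAA', Matrix.one_mulVec]
    simp only [hz]
    ring
  · -- the volume
    set a' : Fin 3 → ℝ := fun _ => -(35 / 4) with ha'
    set b' : Fin 3 → ℝ := fun _ => 21 / 4 with hb'
    have hsub : (fun x => T₀ x + c) '' K ⊆ WithLp.ofLp ⁻¹' (Icc a' b') := by
      rintro _ ⟨x, hx, rfl⟩ 
      refine ⟨?_, ?_⟩
      · intro j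
        have h1 := (abs_le.1 (coord_le_one ha ha₀ hdet hmax hx j)).1
        show a' j ≤ (T₀ x + c) j
        rw [hTcoord]
        simp only [ha']
        linarith
      · intro j
        have h1 := (abs_le.1 (coord_le_one ha ha₀ hdet hmax hx j)).2
        show (T₀ x + c) j ≤ b' j
        rw [hTcoord]
        simp only [hb']
        linarith
    have hvol : volume (WithLp.ofLp ⁻¹' (Icc a' b') : Set E3) = ENNReal.ofReal 2744 := by
      have := (PiLp.volume_preserving_ofLp (Fin 3)).measure_preimage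
        (s := Icc a' b') measurableSet_Icc.nullMeasurableSet
      rw [this, Real.volume_Icc_pi]
      simp only [ha', hb', Finset.prod_const, Finset.card_univ, Fintype.card_fin]
      rw [← ENNReal.ofReal_pow (by norm_num)]
      norm_num
    have hfin : volume (WithLp.ofLp ⁻¹' (Icc a' b') : Set E3) ≠ ⊤ := by
      rw [hvol]; exact ENNReal.ofReal_ne_top
    have := measureReal_mono hsub hfin
    refine this.trans ?_
    rw [measureReal_def, hvol, ENNReal.toReal_ofReal (by norm_num)]

end Vale.Agent.P243
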