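import Vale.Agent.P243.Wet

open MeasureTheory Set Metric Filter Topology
open scoped ENNReal Pointwise RealInnerProductSpace

namespace Vale.Agent.P243

namespace Normalized

variable {K : Set E3} (hK : Normalized K)
include hK

lemma finrank_E3 : Module.finrank ℝ E3 = 3 := by simp

lemma measure_smul (t : ℝ) (ht : 0 ≤ t) : volume (t • K) = ENNReal.ofReal (t ^ 3) * volume K := by
  rw [Measure.addHaar_smul, finrank_E3 hK, abs_of_nonneg (by positivity)]

lemma volume_ne_top : volume K ≠ ⊤ := hK.compact.measure_lt_top.ne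

lemma smul_subset {t : ℝ} (ht0 : 0 < t) (ht1 : t ≤ 1) : t • K ⊆ K := by
  intro x hx
  rw [hK.mem_smul_iff ht0] at hx
  rw [hK.mem_iff]
  linarith

lemma subset_smul {t : ℝ} (ht1 : 1 ≤ t) : K ⊆ t • K := by
  intro x hx
  rw [hK.mem_smul_iff (by linarith)]
  rw [hK.mem_iff] at hx
  linarith

/-- Measure of the part of a shifted copy of `K` lying outside `K`. -/
lemma measureReal_shift_diff_le (w : E3) :
    volume.real ({y | y + w ∈ K} \ K) ≤ ((1 + ‖w‖) ^ 3 - 1) * volume.real K := by
  have hsub : {y | y + w ∈ K} \ K ⊆ ((1 + ‖w‖) • K) \ K := by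
    rintro y ⟨hy, hy2⟩
    refine ⟨?_, hy2⟩
    rw [hK.mem_smul_iff (by positivity)]
    have h1 : gauge K (y + w) ≤ 1 := hK.mem_iff.1 hy
    have h2 := hK.g_add (y + w) (-w)
    have h3 := hK.g_le_norm (-w)
    rw [norm_neg] at h3
    simp only [add_neg_cancel_right] at h2
    linarith
  have hfin : volume ((1 + ‖w‖) • K) ≠ ⊤ := by
    rw [hK.measure_smul _ (by positivity)]
    exact ENNReal.mul_ne_top ENNReal.ofReal_ne_top hK.volume_ne_top
  have h1 : volume.real ({y | y + w ∈ K} \ K) ≤ volume.real (((1 + ‖w‖) • K) \ K) :=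
    measureReal_mono hsub (measure_ne_top_of_subset sdiff_subset hfin)
  refine h1.trans ?_
  rw [measureReal_sdiff (hK.subset_smul (by linarith [norm_nonneg w])) hK.compact.measurableSet hfin]
  have : volume.real ((1 + ‖w‖) • K) = (1 + ‖w‖) ^ 3 * volume.real K := by
    simp only [measureReal_def]
    rw [hK.measure_smul _ (by positivity), ENNReal.toReal_mul, ENNReal.toReal_ofReal (by positivity)]
  rw [this]
  apply le_of_eq
  ring

lemma measurable_shift (w : E3) : MeasurableSet {y : E3 | y + w ∈ K} :=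
  hK.compact.measurableSet.preimage (measurable_add_const w)

lemma volume_shift (w : E3) : volume {y : E3 | y + w ∈ K} = volume K :=
  measure_preimage_add_right volume w K

/-- The basic second-order bound for the integral of a second difference over `K`. -/
lemma integral_sec_le (w : E3) :
    ∫ x in K, sec K x w ≤ 2 * ‖w‖ * ((1 + ‖w‖) ^ 3 - 1) * volume.real K := by
  set k : E3 → ℝ := fun x => gauge K (x + w) - gauge K x with hk
  have hkc : Continuous k := by
    have := hK.g_cont
    fun_prop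
  have hkb : ∀ x, ‖k x‖ ≤ ‖w‖ := by
    intro x
    rw [Real.norm_eq_abs, abs_le]
    have h1 := hK.g_add x w
    have h2 := hK.g_add (x + w) (-w)
    have h3 := hK.g_le_norm w
    have h4 := hK.g_le_norm (-w)
    rw [norm_neg] at h4
    simp only [add_neg_cancel_right] at h2
    simp only [hk]
    constructor <;> linarith
  set K' : Set E3 := {y | y + w ∈ K} with hK'
  have hK'm : MeasurableSet K' := hK.measurable_shift w
  have hKm : MeasurableSet K := hK.compact.measurableSet
  have hK'f : volume K' < ⊤ := by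
    rw [hK.volume_shift]; exact hK.compact.measure_lt_top
  have hKf : volume K < ⊤ := hK.compact.measure_lt_top
  -- the shifted integral
  have hcov : ∫ x in K', k x = ∫ y in K, k (y - w) := by
    have := (measurePreserving_add_right (volume : Measure E3) w).setIntegral_preimage_emb
      (measurableEmbedding_addRight w) (fun y => k (y - w)) K
    simp only [add_sub_cancel_right] at this
    exact this
  have hInt : IntegrableOn k K volume := hkc.continuousOn.integrableOn_compact hK.compact
  have hInt' : IntegrableOn k K' volume := by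
    refine Measure.integrableOn_of_bounded hK'f.ne hkc.aestronglyMeasurable (M := ‖w‖) ?_
    exact Eventually.of_forall hkb
  have hshift : ∫ y in K, k (y - w) = ∫ x in K', k x := hcov.symm
  have hkw : IntegrableOn (fun y => k (y - w)) K volume := by
    have hc : Continuous fun y => k (y - w) := hkc.comp (by fun_prop)
    exact hc.continuousOn.integrableOn_compact hK.compact
  have hsec : ∫ x in K, sec K x w = (∫ x in K, k x) - ∫ y in K, k (y - w) := by
    rw [← integral_sub hInt hkw]
    apply setIntegral_congr_fun hKm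
    intro x _
    simp only [hk, sec, sub_add_cancel]
    ring
  rw [hsec, hshift]
  have h1 := integral_inter_add_sdiff (μ := volume) hK'm hInt
  have h2 := integral_inter_add_sdiff (μ := volume) hKm hInt'
  rw [inter_comm K' K] at h2
  have hA : ∫ x in K \ K', k x ≤ ‖w‖ * volume.real (K \ K') := by
    have := norm_setIntegral_le_of_norm_le_const (μ := volume) (s := K \ K') (f := k) (C := ‖w‖)
      (lt_of_le_of_lt (measure_mono sdiff_subset) hKf) (fun x _ => hkb x)
    exact (le_abs_self _).trans this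
  have hB : - ∫ x in K' \ K, k x ≤ ‖w‖ * volume.real (K' \ K) := by
    have := norm_setIntegral_le_of_norm_le_const (μ := volume) (s := K' \ K) (f := k) (C := ‖w‖)
      (lt_of_le_of_lt (measure_mono sdiff_subset) hK'f) (fun x _ => hkb x)
    exact (neg_le_abs _).trans this
  have hC : volume.real (K' \ K) ≤ ((1 + ‖w‖) ^ 3 - 1) * volume.real K :=
    hK.measureReal_shift_diff_le w
  have hD : volume.real (K \ K') ≤ ((1 + ‖w‖) ^ 3 - 1) * volume.real K := by
    have e : K \ K' = (fun x => x + w) ⁻¹' ({y : E3 | y + (-w) ∈ K} \ K) := by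
      ext x
      simp only [Set.mem_sdiff, mem_preimage, mem_ofPred_eq, add_neg_cancel_right, hK']
    have e2 : volume.real (K \ K') = volume.real ({y : E3 | y + (-w) ∈ K} \ K) := by
      rw [e, measureReal_def, measureReal_def, measure_preimage_add_right]
    rw [e2]
    have := hK.measureReal_shift_diff_le (-w)
    rwa [norm_neg] at this
  have hw := norm_nonneg w
  have : ‖w‖ * volume.real (K \ K') + ‖w‖ * volume.real (K' \ K)
      ≤ 2 * ‖w‖ * ((1 + ‖w‖) ^ 3 - 1) * volume.real K := by
    nlinarith [mul_le_mul_of_nonneg_left hC hw, mul_le_mul_of_nonneg_left hD hw]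
  linarith

lemma sec_le_sec_smul {r : ℝ} (hr0 : 0 < r) (hr1 : r ≤ 1) (x w : E3) :
    sec K x w ≤ sec K (r • x) w := by
  have e : w = r • (r⁻¹ • w) := by rw [smul_smul, mul_inv_cancel₀ hr0.ne', one_smul]
  calc sec K x w = sec K x (r • (r⁻¹ • w)) := by rw [← e]
    _ ≤ r * sec K x (r⁻¹ • w) := hK.sec_scale hr0.le hr1 _ _
    _ = sec K (r • x) (r • (r⁻¹ • w)) := (hK.sec_smul_smul hr0.le _ _).symm
    _ = sec K (r • x) w := by rw [← e]

lemma integrableOn_sec (w : E3) {S : Set E3} (hS : IsCompact S) :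
    IntegrableOn (fun x => sec K x w) S volume :=
  (hK.sec_cont w).continuousOn.integrableOn_compact hS

lemma isCompact_smul (t : ℝ) : IsCompact (t • K) := hK.compact.smul t

lemma integral_sec_smul_ge {r : ℝ} (hr0 : 0 < r) (hr1 : r ≤ 1) (w : E3) :
    r ^ 3 * ∫ x in K, sec K x w ≤ ∫ x in r • K, sec K x w := by
  have h := Measure.setIntegral_comp_smul_of_pos (μ := (volume : Measure E3))
    (fun x => sec K x w) K hr0
  rw [hK.finrank_E3] at h
  have h2 : ∫ x in r • K, sec K x w = r ^ 3 * ∫ x in K, sec K (r • x) w := by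
    rw [h, smul_eq_mul, ← mul_assoc, mul_inv_cancel₀ (by positivity), one_mul]
  rw [h2]
  have hc : Continuous fun x => sec K (r • x) w := (hK.sec_cont w).comp (by fun_prop)
  apply mul_le_mul_of_nonneg_left _ (by positivity)
  apply setIntegral_mono_on (hK.integrableOn_sec w hK.compact)
    (hc.continuousOn.integrableOn_compact hK.compact) hK.compact.measurableSet
  intro x _
  exact hK.sec_le_sec_smul hr0 hr1 x w

lemma integral_shell_le {r : ℝ} (hr0 : 0 < r) (hr1 : r ≤ 1) (w : E3) :
    ∫ x in K \ (r • K), sec K x w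
      ≤ (1 - r ^ 3) * (2 * ‖w‖ * ((1 + ‖w‖) ^ 3 - 1) * volume.real K) := by
  have hm : MeasurableSet (r • K) := (hK.isCompact_smul r).measurableSet
  have h1 := integral_inter_add_sdiff (μ := volume) hm (hK.integrableOn_sec w hK.compact)
  rw [inter_eq_right.2 (hK.smul_subset hr0 hr1)] at h1
  have h2 := hK.integral_sec_smul_ge hr0 hr1 w
  have h3 := hK.integral_sec_le w
  have hr3 : 0 ≤ 1 - r ^ 3 := by
    have : r ^ 3 ≤ 1 := pow_le_one₀ hr0.le hr1
    linarith
  have h4 := mul_le_mul_of_nonneg_left h3 hr3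
  nlinarith

lemma norm_single_smul (σ : ℝ) (hσ : 0 ≤ σ) (i : Fin 3) :
    ‖(3 * σ) • (EuclideanSpace.single i (1 : ℝ) : E3)‖ = 3 * σ := by
  rw [norm_smul]
  simp [abs_of_nonneg hσ]

omit hK in
lemma lam_eq (σ : ℝ) (x : E3) :
    lam K σ x = ∑ i : Fin 3, sec K x ((3 * σ) • EuclideanSpace.single i (1 : ℝ)) := rfl

lemma lam_nonneg (σ : ℝ) (x : E3) : 0 ≤ lam K σ x :=
  Finset.sum_nonneg fun _ _ => hK.sec_nonneg _ _

lemma lam_cont (σ : ℝ) : Continuous (lam K σ) := by
  unfold lam
  exact continuous_finsetSum _ fun _ _ => hK.sec_cont _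

lemma integral_shell_lam_le {σ : ℝ} (hσ : 0 < σ) (hσ' : σ ≤ 1 / 100) :
    ∫ x in K \ ((1 - σ) • K), lam K σ x ≤ 540 * σ ^ 3 * volume.real K := by
  have hm0 : 0 ≤ volume.real K := measureReal_nonneg
  have hcomp : IntegrableOn (lam K σ) (K \ ((1 - σ) • K)) volume :=
    ((hK.lam_cont σ).continuousOn.integrableOn_compact hK.compact).mono_set sdiff_subset
  have hsum : ∫ x in K \ ((1 - σ) • K), lam K σ x
      = ∑ i : Fin 3, ∫ x in K \ ((1 - σ) • K), sec K x ((3 * σ) • EuclideanSpace.single i (1 : ℝ)) := by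
    unfold lam
    rw [integral_finsetSum]
    intro i _
    exact (hK.integrableOn_sec _ hK.compact).mono_set sdiff_subset
  rw [hsum]
  have hone : ∀ i : Fin 3, ∫ x in K \ ((1 - σ) • K), sec K x ((3 * σ) • EuclideanSpace.single i (1 : ℝ))
      ≤ 180 * σ ^ 3 * volume.real K := by
    intro i
    have h := hK.integral_shell_le (r := 1 - σ) (by linarith) (by linarith)
      ((3 * σ) • EuclideanSpace.single i (1 : ℝ))
    rw [hK.norm_single_smul σ hσ.le i] at h
    refine h.trans ?_
    have h1 : 0 ≤ (1 + 3 * σ) ^ 3 - 1 := by nlinarith [pow_pos hσ 2, pow_pos hσ 3]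
    have h2 : (1 + 3 * σ) ^ 3 - 1 ≤ 10 * σ := by nlinarith [pow_pos hσ 2, pow_pos hσ 3]
    have h3 : 1 - (1 - σ) ^ 3 ≤ 3 * σ := by nlinarith [pow_pos hσ 2, pow_pos hσ 3]
    have h4 : 0 ≤ 1 - (1 - σ) ^ 3 := by nlinarith [pow_pos hσ 2, pow_pos hσ 3]
    have h5 : (1 - (1 - σ) ^ 3) * (2 * (3 * σ) * ((1 + 3 * σ) ^ 3 - 1))
        ≤ (3 * σ) * (2 * (3 * σ) * (10 * σ)) := by
      apply mul_le_mul h3 _ (by positivity) (by positivity)
      apply mul_le_mul_of_nonneg_left h2 (by positivity)
    have h6 := mul_le_mul_of_nonneg_right h5 hm0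
    calc _ = (1 - (1 - σ) ^ 3) * (2 * (3 * σ) * ((1 + 3 * σ) ^ 3 - 1)) * volume.real K := by ring
      _ ≤ _ := h6
      _ = _ := by ring
  calc _ ≤ ∑ _i : Fin 3, 180 * σ ^ 3 * volume.real K := Finset.sum_le_sum fun i _ => hone i
    _ = _ := by simp; ring

end Normalized

/-- The set of `good` points of `K`. -/
def goodSet (K : Set E3) (σ lam₀ : ℝ) : Set E3 :=
  {x | x ∈ K ∧ gauge K x ≤ 1 - lam₀ ∧ (gauge K x ≤ 1 - σ ∨ lam K σ x ≤ 3 * lam₀)}

/-- A point of `K` that is the midpoint of a planar disc of radius `σ` contained in `K`. -/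
def FlatCenter (K : Set E3) (σ : ℝ) (x : E3) : Prop :=
  x ∈ K ∧ ∃ φ : E3 →L[ℝ] ℝ, φ ≠ 0 ∧ ∀ w, φ w = 0 → ‖w‖ ≤ σ → x + w ∈ K

namespace Normalized

variable {K : Set E3} (hK : Normalized K)
include hK

lemma measurableSet_goodSet (σ lam₀ : ℝ) : MeasurableSet (goodSet K σ lam₀) := by
  have h1 : goodSet K σ lam₀ = K ∩ ({x | gauge K x ≤ 1 - lam₀} ∩
      ({x | gauge K x ≤ 1 - σ} ∪ {x | lam K σ x ≤ 3 * lam₀})) := by
    ext x
    rfl
  rw [h1]
  have c1 := hK.g_cont
  have c2 := hK.lam_cont σ
  exact hK.compact.measurableSet.inter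
    ((isClosed_le c1 continuous_const).measurableSet.inter
      ((isClosed_le c1 continuous_const).measurableSet.union
        (isClosed_le c2 continuous_const).measurableSet))

lemma goodSet_subset (σ lam₀ : ℝ) : goodSet K σ lam₀ ⊆ K := fun _ h => h.1

lemma measureReal_goodSet_ge {σ lam₀ : ℝ} (hσ : 0 < σ) (hσ' : σ ≤ 1 / 100) (h0 : 0 < lam₀)
    (h1 : lam₀ < 1) :
    (1 - (3 * lam₀ + 180 * σ ^ 3 / lam₀)) * volume.real K ≤ volume.real (goodSet K σ lam₀) := by
  set m := volume.real K with hm
  have hm0 : 0 ≤ m := measureReal_nonneg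
  have hKf := hK.volume_ne_top
  set r := 1 - lam₀ with hr
  have hr0 : 0 < r := by rw [hr]; linarith
  set Sh := K \ ((1 - σ) • K) with hSh
  set Bad := {x | x ∈ Sh ∧ 3 * lam₀ ≤ lam K σ x} with hBad
  have hcover : K ⊆ goodSet K σ lam₀ ∪ ((K \ (r • K)) ∪ Bad) := by
    intro x hx
    by_contra hcon
    simp only [mem_union, not_or] at hcon
    obtain ⟨hc1, hc2, hc3⟩ := hcon
    have hx1 : gauge K x ≤ r := by
      by_contra hh
      apply hc2
      refine ⟨hx, ?_⟩
      rw [hK.mem_smul_iff hr0]
      exact hh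
    apply hc1
    refine ⟨hx, hx1, ?_⟩
    by_contra hh
    push Not at hh
    apply hc3
    refine ⟨⟨hx, ?_⟩, hh.2.le⟩
    rw [hK.mem_smul_iff (by linarith)]
    exact not_le.2 hh.1
  -- first piece
  have hp1 : volume.real (K \ (r • K)) ≤ 3 * lam₀ * m := by
    rw [measureReal_sdiff (hK.smul_subset hr0 (by rw [hr]; linarith))
      (hK.isCompact_smul r).measurableSet hKf]
    have : volume.real (r • K) = r ^ 3 * m := by
      simp only [measureReal_def, hm]
      rw [hK.measure_smul _ hr0.le, ENNReal.toReal_mul, ENNReal.toReal_ofReal (by positivity)]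
    rw [this]
    have h3 : 1 - 3 * lam₀ ≤ r ^ 3 := by
      rw [hr]
      nlinarith [pow_pos h0 2, pow_pos h0 3, mul_pos h0 (pow_pos h0 2)]
    nlinarith
  -- second piece : Markov
  have hShf : volume Sh < ⊤ := lt_of_le_of_lt (measure_mono sdiff_subset) hK.compact.measure_lt_top
  have hShm : MeasurableSet Sh :=
    MeasurableSet.diff hK.compact.measurableSet (hK.isCompact_smul _).measurableSet
  have hInt : Integrable (lam K σ) (volume.restrict Sh) :=
    ((hK.lam_cont σ).continuousOn.integrableOn_compact hK.compact).mono_set sdiff_subset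
  have hMark := mul_meas_ge_le_integral_of_nonneg (μ := volume.restrict Sh)
    (Eventually.of_forall fun x => hK.lam_nonneg σ x) hInt (3 * lam₀)
  have hBadEq : Bad ⊆ {x | 3 * lam₀ ≤ lam K σ x} ∩ Sh := fun x hx => ⟨hx.2, hx.1⟩
  have hmeasSet : MeasurableSet {x | 3 * lam₀ ≤ lam K σ x} :=
    (isClosed_le continuous_const (hK.lam_cont σ)).measurableSet
  have hp2 : volume.real Bad ≤ 180 * σ ^ 3 / lam₀ * m := by
    have hle : volume.real Bad ≤ (volume.restrict Sh).real {x | 3 * lam₀ ≤ lam K σ x} := by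
      rw [measureReal_def, measureReal_def, Measure.restrict_apply hmeasSet]
      apply ENNReal.toReal_mono
      · exact (lt_of_le_of_lt (measure_mono inter_subset_right) hShf).ne
      · exact measure_mono hBadEq
    have h4 := hK.integral_shell_lam_le hσ hσ'
    have h5 : 3 * lam₀ * volume.real Bad ≤ 540 * σ ^ 3 * m := by
      calc 3 * lam₀ * volume.real Bad ≤ 3 * lam₀ * (volume.restrict Sh).real {x | 3 * lam₀ ≤ lam K σ x} :=
            mul_le_mul_of_nonneg_left hle (by positivity)
        _ ≤ _ := hMark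
        _ ≤ _ := h4
    rw [div_mul_eq_mul_div, le_div_iff₀ h0]
    nlinarith
  -- conclusion
  have hGf : volume (goodSet K σ lam₀) ≠ ⊤ :=
    (lt_of_le_of_lt (measure_mono (hK.goodSet_subset σ lam₀)) hK.compact.measure_lt_top).ne
  have hsub1 : volume ((K \ (r • K)) ∪ Bad) ≠ ⊤ := by
    refine (lt_of_le_of_lt (measure_mono ?_) hK.compact.measure_lt_top).ne
    rintro x (⟨h, _⟩ | ⟨⟨h, _⟩, _⟩) <;> exact h
  have h6 : m ≤ volume.real (goodSet K σ lam₀) + volume.real ((K \ (r • K)) ∪ Bad) := by
    refine (measureReal_mono hcover (measure_union_ne_top hGf hsub1)).trans ?_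
    exact measureReal_union_le _ _
  have h7 : volume.real ((K \ (r • K)) ∪ Bad) ≤ volume.real (K \ (r • K)) + volume.real Bad :=
    measureReal_union_le _ _
  have e : (1 - (3 * lam₀ + 180 * σ ^ 3 / lam₀)) * m
      = m - 3 * lam₀ * m - 180 * σ ^ 3 / lam₀ * m := by ring
  rw [e]
  linarith

lemma flatCenter_of_mem_goodSet {σ lam₀ : ℝ} (hσ : 0 < σ) (hσ1 : σ < 1)
    {x : E3} (hx : x ∈ goodSet K σ lam₀) : FlatCenter K σ x := by
  obtain ⟨hxK, h1, h2⟩ := hx
  refine ⟨hxK, ?_⟩
  by_cases hc : gauge K x ≤ 1 - σ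
  · -- the easy case : deep inside `K`
    let φ : E3 →L[ℝ] ℝ := innerSL ℝ (EuclideanSpace.single (0 : Fin 3) (1 : ℝ))
    refine ⟨φ, ?_, ?_⟩
    · intro h
      have : φ (EuclideanSpace.single (0 : Fin 3) (1 : ℝ)) = 0 := by rw [h]; rfl
      simp [φ] at this
    · intro w _ hw
      rw [hK.mem_iff]
      have := hK.g_add x w
      have := hK.g_le_norm w
      linarith
  · have h3 : lam K σ x ≤ 3 * lam₀ := by
      rcases h2 with h | h
      · exact absurd h hc
      · exact h
    push Not at hc
    have hgpos : 0 < gauge K x := by linarith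
    set A : Set E3 := {z | gauge K z < gauge K x} with hA
    have hAopen : IsOpen A := isOpen_lt hK.g_cont continuous_const
    have hAconv : Convex ℝ A := by
      have := hK.g_convexOn.convex_lt (gauge K x)
      simpa [hA] using this
    have hxA : x ∉ A := by simp [hA]
    obtain ⟨φ, hφ⟩ := geometric_hahn_banach_open_point hAconv hAopen hxA
    have h0A : (0 : E3) ∈ A := by simp only [hA, mem_ofPred_eq, gauge_zero]; exact hgpos
    refine ⟨φ, ?_, ?_⟩
    · intro h
      have := hφ 0 h0A
      simp [h] at this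
    · intro w hwφ hw
      rw [hK.mem_iff]
      have hp : x + w ∉ A := by
        intro hin
        have := hφ _ hin
        simp [hwφ] at this
      have hm : x - w ∉ A := by
        intro hin
        have := hφ _ hin
        simp [hwφ] at this
      simp only [hA, mem_ofPred_eq, not_lt] at hp hm
      have h4 := hK.sec_le_lam hσ x hw
      unfold sec at h4
      linarith

end Normalized

end Vale.Agent.P243
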