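import Vale.Agent.P243.Steiner
import Vale.Agent.P243.WetMeasure

open MeasureTheory Set Metric Filter Topology Module
open scoped ENNReal Pointwise RealInnerProductSpace

namespace Vale.Agent.P243

/-- An orthonormal triple `(f, e, u)`. -/
structure Frame (f e u : E3) : Prop where
  nf : ‖f‖ = 1
  ne : ‖e‖ = 1
  nu : ‖u‖ = 1
  fe : ⟪f, e⟫ = 0
  fu : ⟪f, u⟫ = 0
  eu : ⟪e, u⟫ = 0

/-- The coordinates associated with a frame. -/
noncomputable def coord (f e u : E3) (x : E3) : (ℝ × ℝ) × ℝ :=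
  ((⟪f, x⟫, ⟪e, x⟫), ⟪u, x⟫)

/-- The coordinates as a continuous linear map. -/
noncomputable def coordL (f e u : E3) : E3 →L[ℝ] (ℝ × ℝ) × ℝ :=
  ((innerSL ℝ f).prod (innerSL ℝ e)).prod (innerSL ℝ u)

lemma coordL_apply (f e u x : E3) : coordL f e u x = coord f e u x := rfl

lemma Frame.orthonormal {f e u : E3} (h : Frame f e u) : Orthonormal ℝ ![f, e, u] := by
  rw [orthonormal_iff_ite]
  intro i j
  have h1 : ⟪f, f⟫ = 1 := by rw [real_inner_self_eq_norm_sq, h.nf]; norm_num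
  have h2 : ⟪e, e⟫ = 1 := by rw [real_inner_self_eq_norm_sq, h.ne]; norm_num
  have h3 : ⟪u, u⟫ = 1 := by rw [real_inner_self_eq_norm_sq, h.nu]; norm_num
  have h4 : ⟪e, f⟫ = 0 := by rw [real_inner_comm]; exact h.fe
  have h5 : ⟪u, f⟫ = 0 := by rw [real_inner_comm]; exact h.fu
  have h6 : ⟪u, e⟫ = 0 := by rw [real_inner_comm]; exact h.eu
  fin_cases i <;> fin_cases j <;> simp [h4, h5, h6, h.fe, h.fu, h.eu, h.nf, h.ne, h.nu]

/-- The orthonormal basis of a frame. -/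
noncomputable def Frame.basis {f e u : E3} (h : Frame f e u) : OrthonormalBasis (Fin 3) ℝ E3 :=
  (basisOfOrthonormalOfCardEqFinrank h.orthonormal (by simp)).toOrthonormalBasis
    (by simpa using h.orthonormal)

lemma Frame.basis_apply {f e u : E3} (h : Frame f e u) (i : Fin 3) :
    h.basis i = ![f, e, u] i := by
  simp [Frame.basis]

/-- The map `ℝ³ → (ℝ × ℝ) × ℝ`. -/
noncomputable def piToProd : (Fin 3 → ℝ) ≃ᵐ (ℝ × ℝ) × ℝ :=
  (MeasurableEquiv.piFinSuccAbove (fun _ => ℝ) (2 : Fin 3)).trans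
    (((MeasurableEquiv.refl ℝ).prodCongr (MeasurableEquiv.finTwoArrow)).trans
      MeasurableEquiv.prodComm)

lemma piToProd_apply (x : Fin 3 → ℝ) : piToProd x = ((x 0, x 1), x 2) := by
  rfl

lemma piToProd_preserving : MeasurePreserving piToProd volume volume := by
  have h1 := volume_preserving_piFinSuccAbove (fun _ : Fin 3 => ℝ) (2 : Fin 3)
  have h2 := (MeasurePreserving.id (volume : Measure ℝ)).prod
    (volume_preserving_finTwoArrow ℝ)
  have h3 : MeasurePreserving (Prod.swap : ℝ × (ℝ × ℝ) → (ℝ × ℝ) × ℝ) volume volume :=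
    Measure.measurePreserving_swap
  exact h3.comp (h2.comp h1)

/-- The coordinates of a frame as a measure preserving equivalence. -/
lemma Frame.exists_equiv {f e u : E3} (h : Frame f e u) :
    ∃ Φ : E3 ≃ᵐ (ℝ × ℝ) × ℝ, MeasurePreserving Φ volume volume ∧ ∀ x, Φ x = coord f e u x := by
  let b := h.basis
  let Φ : E3 ≃ᵐ (ℝ × ℝ) × ℝ :=
    b.repr.toHomeomorph.toMeasurableEquiv.trans
      ((MeasurableEquiv.toLp 2 (Fin 3 → ℝ)).symm.trans piToProd)
  refine ⟨Φ, ?_, ?_⟩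
  · have h1 : MeasurePreserving b.repr volume volume := b.measurePreserving_repr
    have h2 := EuclideanSpace.volume_preserving_symm_measurableEquiv_toLp (Fin 3)
    exact (piToProd_preserving.comp h2).comp h1
  · intro x
    have h0 : b 0 = f := by simpa using h.basis_apply 0
    have h1 : b 1 = e := by simpa using h.basis_apply 1
    have h2 : b 2 = u := by simpa using h.basis_apply 2
    show piToProd (WithLp.ofLp (b.repr x)) = _
    rw [piToProd_apply]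
    show ((b.repr x 0, b.repr x 1), b.repr x 2) = _
    rw [b.repr_apply_apply, b.repr_apply_apply, b.repr_apply_apply, h0, h1, h2]
    rfl

lemma Frame.volume_image {f e u : E3} (h : Frame f e u) (S : Set E3) :
    volume (coord f e u '' S) = volume S := by
  obtain ⟨Φ, hΦ, hc⟩ := h.exists_equiv
  have e1 : coord f e u = Φ := by
    ext x <;> rw [hc]
  rw [e1, MeasurableEquiv.image_eq_preimage_symm]
  exact hΦ.symm.measure_preimage_equiv S

lemma isCompact_coord_image {K : Set E3} (hK : IsCompact K) (f e u : E3) :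
    IsCompact (coord f e u '' K) :=
  hK.image (coordL f e u).continuous

lemma convex_coord_image {K : Set E3} (hK : Convex ℝ K) (f e u : E3) :
    Convex ℝ (coord f e u '' K) :=
  hK.linear_image (coordL f e u).toLinearMap

lemma Frame.mem_perp_f {f e u : E3} (h : Frame f e u) : f ∈ (ℝ ∙ u)ᗮ := by
  rw [Submodule.mem_orthogonal_singleton_iff_inner_right]
  rw [real_inner_comm]; exact h.fu

lemma Frame.mem_perp_e {f e u : E3} (h : Frame f e u) : e ∈ (ℝ ∙ u)ᗮ := by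
  rw [Submodule.mem_orthogonal_singleton_iff_inner_right]
  rw [real_inner_comm]; exact h.eu

lemma Frame.orthonormal2 {f e u : E3} (h : Frame f e u) :
    Orthonormal ℝ ![(⟨f, h.mem_perp_f⟩ : (ℝ ∙ u)ᗮ), ⟨e, h.mem_perp_e⟩] := by
  rw [orthonormal_iff_ite]
  intro i j
  have h4 : ⟪e, f⟫ = 0 := by rw [real_inner_comm]; exact h.fe
  fin_cases i <;> fin_cases j <;> simp [h4, h.fe, h.nf, h.ne, Submodule.coe_inner]

instance : Fact (finrank ℝ E3 = 2 + 1) := ⟨by simp⟩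

lemma finrank_perp {u : E3} (hu : ‖u‖ = 1) : finrank ℝ (ℝ ∙ u)ᗮ = 2 := by
  have hu0 : u ≠ 0 := by
    intro h; rw [h] at hu; simp at hu
  exact Submodule.finrank_orthogonal_span_singleton hu0

/-- The coordinates of a frame on the plane orthogonal to `u`, as a measure preserving
equivalence. -/
lemma Frame.exists_equiv2 {f e u : E3} (h : Frame f e u) :
    ∃ ψ : (ℝ ∙ u)ᗮ ≃ᵐ ℝ × ℝ, MeasurePreserving ψ volume volume ∧
      ∀ y : (ℝ ∙ u)ᗮ, ψ y = (⟪f, (y : E3)⟫, ⟪e, (y : E3)⟫) := by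
  let b : OrthonormalBasis (Fin 2) ℝ (ℝ ∙ u)ᗮ :=
    (basisOfOrthonormalOfCardEqFinrank h.orthonormal2 (by rw [finrank_perp h.nu]; simp)).toOrthonormalBasis
      (by simpa using h.orthonormal2)
  have hb0 : b 0 = ⟨f, h.mem_perp_f⟩ := by simp [b]
  have hb1 : b 1 = ⟨e, h.mem_perp_e⟩ := by simp [b]
  let ψ : (ℝ ∙ u)ᗮ ≃ᵐ ℝ × ℝ :=
    b.repr.toHomeomorph.toMeasurableEquiv.trans
      ((MeasurableEquiv.toLp 2 (Fin 2 → ℝ)).symm.trans MeasurableEquiv.finTwoArrow)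
  refine ⟨ψ, ?_, ?_⟩
  · have h1 : MeasurePreserving b.repr volume volume := b.measurePreserving_repr
    have h2 := EuclideanSpace.volume_preserving_symm_measurableEquiv_toLp (Fin 2)
    exact ((volume_preserving_finTwoArrow ℝ).comp h2).comp h1
  · intro y
    show (b.repr y 0, b.repr y 1) = _
    rw [b.repr_apply_apply, b.repr_apply_apply, hb0, hb1]
    rfl

lemma Frame.volume_image2 {f e u : E3} (h : Frame f e u) (S : Set (ℝ ∙ u)ᗮ) :
    volume ((fun y : (ℝ ∙ u)ᗮ => ((⟪f, (y : E3)⟫, ⟪e, (y : E3)⟫) : ℝ × ℝ)) '' S) = volume S := by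
  obtain ⟨ψ, hψ, hc⟩ := h.exists_equiv2
  have e1 : (fun y : (ℝ ∙ u)ᗮ => ((⟪f, (y : E3)⟫, ⟪e, (y : E3)⟫) : ℝ × ℝ)) = ψ := by
    funext y
    rw [hc]
  rw [e1, MeasurableEquiv.image_eq_preimage_symm]
  exact hψ.symm.measure_preimage_equiv S

lemma Frame.inner_proj_f {f e u : E3} (h : Frame f e u) (x : E3) :
    ⟪f, ((ℝ ∙ u)ᗮ.orthogonalProjectionOnto x : E3)⟫ = ⟪f, x⟫ := by
  have := Submodule.inner_orthogonalProjectionOnto_eq_of_mem_left
    (K := (ℝ ∙ u)ᗮ) (⟨f, h.mem_perp_f⟩ : (ℝ ∙ u)ᗮ) x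
  exact this

lemma Frame.inner_proj_e {f e u : E3} (h : Frame f e u) (x : E3) :
    ⟪e, ((ℝ ∙ u)ᗮ.orthogonalProjectionOnto x : E3)⟫ = ⟪e, x⟫ := by
  have := Submodule.inner_orthogonalProjectionOnto_eq_of_mem_left
    (K := (ℝ ∙ u)ᗮ) (⟨e, h.mem_perp_e⟩ : (ℝ ∙ u)ᗮ) x
  exact this

lemma Frame.volume_shadow {f e u : E3} (h : Frame f e u) (K : Set E3) :
    volume (Prod.fst '' (coord f e u '' K)) = volume ((ℝ ∙ u)ᗮ.orthogonalProjectionOnto '' K) := by
  rw [← h.volume_image2]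
  congr 1
  ext y
  simp only [mem_image, exists_exists_and_eq_and]
  constructor
  · rintro ⟨x, hx, rfl⟩
    exact ⟨x, hx, by rw [h.inner_proj_f, h.inner_proj_e]; rfl⟩
  · rintro ⟨x, hx, rfl⟩
    exact ⟨x, hx, by rw [h.inner_proj_f, h.inner_proj_e]; rfl⟩

lemma exists_unit_ker (a b : E3 →L[ℝ] ℝ) : ∃ v : E3, ‖v‖ = 1 ∧ a v = 0 ∧ b v = 0 := by
  let L : E3 →ₗ[ℝ] ℝ × ℝ := (a.prod b).toLinearMap
  have hlt : finrank ℝ (ℝ × ℝ) < finrank ℝ E3 := by simp
  have hker : LinearMap.ker L ≠ ⊥ := LinearMap.ker_ne_bot_of_finrank_lt hlt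
  obtain ⟨w, hw, hw0⟩ := (Submodule.ne_bot_iff _).1 hker
  have hw' : L w = 0 := hw
  have h1 : a w = 0 := congrArg Prod.fst hw'
  have h2 : b w = 0 := congrArg Prod.snd hw'
  have hn : ‖w‖ ≠ 0 := norm_ne_zero_iff.2 hw0
  refine ⟨(‖w‖⁻¹) • w, ?_, ?_, ?_⟩
  · rw [norm_smul, norm_inv, norm_norm, inv_mul_cancel₀ hn]
  · rw [map_smul, h1, smul_zero]
  · rw [map_smul, h2, smul_zero]

lemma exists_frame {u : E3} (hu : ‖u‖ = 1) (n : E3 →L[ℝ] ℝ) :
    ∃ f e : E3, Frame f e u ∧ n f = 0 := by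
  obtain ⟨f, hf, hf1, hf2⟩ := exists_unit_ker (innerSL ℝ u) n
  obtain ⟨e, he, he1, he2⟩ := exists_unit_ker (innerSL ℝ u) (innerSL ℝ f)
  have h1 : ⟪u, f⟫ = 0 := hf1
  have h2 : ⟪u, e⟫ = 0 := he1
  have h3 : ⟪f, e⟫ = 0 := he2
  refine ⟨f, e, ⟨hf, he, hu, h3, ?_, ?_⟩, hf2⟩
  · rw [real_inner_comm]; exact h1
  · rw [real_inner_comm]; exact h2

end Vale.Agent.P243
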