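import Vale.Agent.P243.Frame

open MeasureTheory Set Metric Filter Topology Module
open scoped ENNReal Pointwise RealInnerProductSpace

namespace Vale.Agent.P243

variable {K : Set E3} {f e u : E3}

lemma Frame.coord_add_smul (h : Frame f e u) (a : E3) (t : ℝ) :
    coord f e u (a + t • u) = ((⟪f, a⟫, ⟪e, a⟫), ⟪u, a⟫ + t) := by
  simp [coord, inner_add_right, inner_smul_right, h.fu, h.eu, h.nu]

lemma Frame.chord_of_mem (h : Frame f e u) {a : E3} {t : ℝ} (ha : a ∈ K) (hb : a + t • u ∈ K) :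
    (⟪f, a⟫, ⟪e, a⟫) ∈ chordSet (coord f e u '' K) t := by
  refine ⟨⟪u, a⟫, ⟨a, ha, rfl⟩, ⟨a + t • u, hb, ?_⟩⟩
  exact h.coord_add_smul a t

lemma Frame.one_le_shadow (h : Frame f e u) (hK : Normalized K) :
    1 ≤ volume (Prod.fst '' (coord f e u '' K)) := by
  have hsub : Icc (-(1/2) : ℝ) (1/2) ×ˢ Icc (-(1/2) : ℝ) (1/2) ⊆ Prod.fst '' (coord f e u '' K) := by
    rintro ⟨a, b⟩ ⟨ha, hb⟩
    simp only [mem_Icc] at ha hb
    have hx : a • f + b • e ∈ K := by
      apply hK.ball
      rw [mem_closedBall, dist_zero_right]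
      refine (norm_add_le _ _).trans ?_
      rw [norm_smul, norm_smul, h.nf, h.ne, Real.norm_eq_abs, Real.norm_eq_abs]
      have h1 := abs_le.2 ha
      have h2 := abs_le.2 hb
      linarith
    refine ⟨coord f e u (a • f + b • e), ⟨_, hx, rfl⟩, ?_⟩
    have h4 : ⟪e, f⟫ = 0 := by rw [real_inner_comm]; exact h.fe
    simp [coord, inner_add_right, inner_smul_right, h.fe, h4, h.nf, h.ne]
  refine le_trans ?_ (measure_mono hsub)
  rw [Measure.volume_eq_prod, Measure.prod_prod, Real.volume_Icc]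
  norm_num

lemma Frame.two_le_width (h : Frame f e u) (hK : Normalized K) :
    2 ≤ volume (Prod.snd '' (Prod.fst '' (coord f e u '' K))) := by
  have hsub : Icc (-1 : ℝ) 1 ⊆ Prod.snd '' (Prod.fst '' (coord f e u '' K)) := by
    intro b hb
    have hx : b • e ∈ K := by
      apply hK.ball
      rw [mem_closedBall, dist_zero_right, norm_smul, h.ne, Real.norm_eq_abs, mul_one]
      exact abs_le.2 hb
    refine ⟨_, ⟨coord f e u (b • e), ⟨_, hx, rfl⟩, rfl⟩, ?_⟩
    simp [coord, inner_smul_right, h.ne]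
  refine le_trans ?_ (measure_mono hsub)
  rw [Real.volume_Icc]
  norm_num

/-- The Steiner bound in the coordinates of a frame. -/
lemma Frame.steiner (h : Frame f e u) (hK : Normalized K) {t r : ℝ} (ht : 0 < t) (hr : 0 ≤ r)
    {x y : ℝ} (h0 : (x, y) ∈ chordSet (coord f e u '' K) t)
    (h1 : (x + r, y) ∈ chordSet (coord f e u '' K) t) :
    t * ((volume ((ℝ ∙ u)ᗮ.orthogonalProjectionOnto '' K)).toReal / 3 + r / 3) ≤ volume.real K := by
  have hc := isCompact_coord_image hK.compact f e u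
  have hs := steiner_segment hc (convex_coord_image hK.convex f e u) ht hr h0 h1
  rw [h.volume_image, h.volume_shadow] at hs
  have hWc : IsCompact (Prod.snd '' (Prod.fst '' (coord f e u '' K))) :=
    (hc.image continuous_fst).image continuous_snd
  have hW : 2 ≤ (volume (Prod.snd '' (Prod.fst '' (coord f e u '' K)))).toReal := by
    have := ENNReal.toReal_mono hWc.measure_lt_top.ne (h.two_le_width hK)
    simpa using this
  have hs2 := (ENNReal.ofReal_le_iff_le_toReal hK.volume_ne_top).1 hs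
  refine le_trans ?_ hs2
  apply mul_le_mul_of_nonneg_left _ ht.le
  have := mul_le_mul_of_nonneg_left hW hr
  linarith

/-- The shadow of a normalized body has area at least one. -/
lemma one_le_shadow_toReal (hK : Normalized K) (hu : ‖u‖ = 1) :
    1 ≤ (volume ((ℝ ∙ u)ᗮ.orthogonalProjectionOnto '' K)).toReal := by
  obtain ⟨f, e, h, -⟩ := exists_frame hu 0
  have h1 := h.one_le_shadow hK
  rw [h.volume_shadow] at h1
  have hc : IsCompact ((ℝ ∙ u)ᗮ.orthogonalProjectionOnto '' K) :=
    hK.compact.image (ContinuousLinearMap.continuous _)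
  have := ENNReal.toReal_mono hc.measure_lt_top.ne h1
  simpa using this

/-- The support functional of the difference body in the direction `u`. -/
lemma exists_support (hK : Normalized K) (hu : ‖u‖ = 1) {a₀ : E3} {τ : ℝ} (ha : a₀ ∈ K)
    (hb : a₀ + τ • u ∈ K) :
    ∃ (t : ℝ) (n : E3 →L[ℝ] ℝ), τ ≤ t ∧ 2 ≤ t ∧ 0 < n u ∧ (∃ a ∈ K, a + t • u ∈ K) ∧
      ∀ a ∈ K, ∀ b ∈ K, n (b - a) ≤ t * n u := by
  set C : Set E3 := K - K with hC
  have hCc : IsCompact C := by
    rw [hC, sub_eq_add_neg]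
    exact hK.compact.add hK.compact.neg
  have hCconv : Convex ℝ C := hK.convex.sub hK.convex
  have h0 := hK.zero_mem
  have hball : ball (0 : E3) 1 ⊆ C := by
    intro z hz
    exact ⟨z, hK.ball (ball_subset_closedBall hz), 0, h0, sub_zero z⟩
  have h0int : (0 : E3) ∈ interior C := mem_interior.2 ⟨ball 0 1, hball, isOpen_ball, mem_ball_self one_pos⟩
  set S : Set ℝ := {t | t • u ∈ C} with hS
  have hSclosed : IsClosed S := hCc.isClosed.preimage (by fun_prop)
  obtain ⟨R, hR⟩ := hCc.isBounded.subset_closedBall (0 : E3)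
  have hSsub : S ⊆ Icc (-R) R := by
    intro t ht
    have := hR ht
    rw [mem_closedBall, dist_zero_right, norm_smul, hu, mul_one, Real.norm_eq_abs] at this
    exact abs_le.1 this
  have hScomp : IsCompact S := IsCompact.of_isClosed_subset isCompact_Icc hSclosed hSsub
  have h2S : (2 : ℝ) ∈ S := by
    have h1 : u ∈ K := hK.ball (by simp [hu])
    have h2 : -u ∈ K := hK.ball (by simp [hu])
    refine ⟨u, h1, -u, h2, ?_⟩
    show u - (-u) = _
    rw [two_smul]; abel
  have hτS : τ ∈ S := ⟨a₀ + τ • u, hb, a₀, ha, by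
    show a₀ + τ • u - a₀ = _
    abel⟩
  have hSne : S.Nonempty := ⟨2, h2S⟩
  set t := sSup S with ht
  have htS : t ∈ S := hScomp.sSup_mem hSne
  have ht2 : 2 ≤ t := le_csSup hScomp.bddAbove h2S
  have htτ : τ ≤ t := le_csSup hScomp.bddAbove hτS
  have hnotint : t • u ∉ interior C := by
    intro hin
    obtain ⟨δ, hδ, hball2⟩ := Metric.isOpen_iff.1 isOpen_interior _ hin
    have hmem : (t + δ / 2) • u ∈ ball (t • u) δ := by
      rw [mem_ball, dist_eq_norm, ← sub_smul, norm_smul, hu, mul_one, Real.norm_eq_abs]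
      have : t + δ / 2 - t = δ / 2 := by ring
      rw [this, abs_of_pos (by linarith)]
      linarith
    have h3 : t + δ / 2 ∈ S := by
      show _ ∈ C
      exact interior_subset (hball2 hmem)
    have h4 := le_csSup hScomp.bddAbove h3
    linarith
  obtain ⟨n, hn⟩ := geometric_hahn_banach_open_point hCconv.interior isOpen_interior hnotint
  have hnpos : 0 < n u := by
    have := hn 0 h0int
    rw [map_zero, map_smul, smul_eq_mul] at this
    exact (pos_iff_pos_of_mul_pos (this)).1 (by linarith)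
  have hle : ∀ z ∈ C, n z ≤ n (t • u) := by
    intro z hz
    have hcl : z ∈ closure (interior C) := by
      rw [hCconv.closure_interior_eq_closure_of_nonempty_interior ⟨0, h0int⟩]
      exact subset_closure hz
    exact closure_minimal (fun w hw => (hn w hw).le)
      (isClosed_le n.continuous continuous_const) hcl
  obtain ⟨b, hb', a, ha', hab⟩ := htS
  refine ⟨t, n, htτ, ht2, hnpos, ⟨a, ha', ?_⟩, ?_⟩
  · have hab2 : b - a = t • u := hab
    have : a + t • u = b := by rw [← hab2]; abel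
    rw [this]; exact hb'
  · intro a ha b hb
    have := hle (b - a) ⟨b, hb, a, ha, rfl⟩
    rwa [map_smul, smul_eq_mul] at this

/-- A flat center with a constraint on the slope contains a chord with horizontal
part `σ / 2` in the direction `f`. -/
lemma flat_slice (hK : Normalized K) {σ : ℝ} (hσ : 0 < σ) (hf : ‖f‖ = 1) (hu : ‖u‖ = 1)
    (hfu : ⟪f, u⟫ = 0) {x : E3} (hx : FlatCenter K σ x) {ε : ℝ} (hε : ε < σ / 2)
    (hb : ∀ a b : ℝ, x + (a • f + b • u) ∈ K → x - (a • f + b • u) ∈ K → |b| ≤ ε) :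
    ∃ b : ℝ, x + ((σ / 2) • f + b • u) ∈ K ∧ x - ((σ / 2) • f + b • u) ∈ K := by
  obtain ⟨hxK, φ, hφ, hφ'⟩ := hx
  -- a nonzero vector of the kernel of `φ` in the plane spanned by `f` and `u`
  obtain ⟨a₀, b₀, hne, hker⟩ : ∃ a₀ b₀ : ℝ, (a₀ ^ 2 + b₀ ^ 2 ≠ 0) ∧ φ (a₀ • f + b₀ • u) = 0 := by
    by_cases h : φ u = 0 ∧ φ f = 0
    · refine ⟨1, 0, by norm_num, ?_⟩
      simp [h.2]
    · refine ⟨φ u, - φ f, ?_, ?_⟩
      · intro h0
        apply h
        have h1 : φ u ^ 2 = 0 := by nlinarith [sq_nonneg (φ u), sq_nonneg (- φ f)]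
        have h2 : (- φ f) ^ 2 = 0 := by nlinarith [sq_nonneg (φ u), sq_nonneg (- φ f)]
        exact ⟨pow_eq_zero_iff (by norm_num) |>.1 h1, by simpa using h2⟩
      · simp only [map_add, map_smul, smul_eq_mul]
        ring
  have hpos : 0 < a₀ ^ 2 + b₀ ^ 2 := lt_of_le_of_ne (by positivity) (Ne.symm hne)
  set ρ := Real.sqrt (a₀ ^ 2 + b₀ ^ 2) with hρ
  have hρpos : 0 < ρ := Real.sqrt_pos.2 hpos
  have hρ2 : ρ ^ 2 = a₀ ^ 2 + b₀ ^ 2 := Real.sq_sqrt hpos.le
  set a := σ * a₀ / ρ with ha
  set b := σ * b₀ / ρ with hb'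
  have hab2 : a ^ 2 + b ^ 2 = σ ^ 2 := by
    rw [ha, hb']
    field_simp
    rw [hρ2]
  set v := a • f + b • u with hv
  have hφv : φ v = 0 := by
    have : v = (σ / ρ) • (a₀ • f + b₀ • u) := by
      rw [hv, smul_add, smul_smul, smul_smul, ha, hb']
      congr 2 <;> ring
    rw [this, map_smul, hker, smul_zero]
  have h1f : ⟪f, f⟫ = 1 := by rw [real_inner_self_eq_norm_sq, hf]; norm_num
  have h1u : ⟪u, u⟫ = 1 := by rw [real_inner_self_eq_norm_sq, hu]; norm_num
  have huf : ⟪u, f⟫ = 0 := by rw [real_inner_comm]; exact hfu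
  have hvnorm : ‖v‖ ≤ σ := by
    have h2 : ‖v‖ ^ 2 = σ ^ 2 := by
      rw [← real_inner_self_eq_norm_sq, hv, ← hab2]
      simp only [inner_add_left, inner_add_right, inner_smul_left, inner_smul_right, h1f, h1u, hfu,
        huf]
      simp
      ring
    exact abs_le_of_sq_le_sq' h2.le hσ.le |>.2
  have hp : x + v ∈ K := hφ' v hφv hvnorm
  have hm : x - v ∈ K := by
    have := hφ' (-v) (by rw [map_neg, hφv, neg_zero]) (by rwa [norm_neg])
    rwa [← sub_eq_add_neg] at this
  have hbb := hb a b hp hm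
  have hb2 : b ^ 2 < σ ^ 2 / 4 := by
    have h3 : |b| < σ / 2 := lt_of_le_of_lt hbb hε
    have h4 := abs_nonneg b
    rw [← sq_abs b]
    nlinarith
  have ha2 : σ ^ 2 / 4 < a ^ 2 := by nlinarith [pow_pos hσ 2]
  have ha0 : a ≠ 0 := by
    intro h0
    rw [h0] at ha2
    nlinarith [pow_pos hσ 2]
  set s := σ / 2 / a with hs
  have hsa : s * a = σ / 2 := by rw [hs]; field_simp
  have hs2 : s ^ 2 ≤ 1 := by
    have h5 : s ^ 2 * a ^ 2 = σ ^ 2 / 4 := by
      have : (s * a) ^ 2 = (σ / 2) ^ 2 := by rw [hsa]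
      rw [mul_pow] at this
      rw [this]; ring
    by_contra hcon
    push Not at hcon
    nlinarith [pow_pos hσ 2, sq_nonneg a]
  have hs1 : |s| ≤ 1 := by
    rw [← sq_le_one_iff_abs_le_one]
    exact hs2
  have hs3 := abs_le.1 hs1
  have e1 : (σ / 2) • f + (s * b) • u = s • v := by
    rw [hv, smul_add, smul_smul, smul_smul, hsa]
  refine ⟨s * b, ?_, ?_⟩
  · rw [e1]
    have := hK.convex hp hm (a := (1 + s) / 2) (b := (1 - s) / 2) (by linarith) (by linarith)
      (by ring)
    convert this using 1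
    module
  · rw [e1]
    have := hK.convex hp hm (a := (1 - s) / 2) (b := (1 + s) / 2) (by linarith) (by linarith)
      (by ring)
    convert this using 1
    module

/-- The gain lemma: two flat centers on a line parallel to `u` are at a distance strictly smaller
than what the Steiner bound gives. -/
theorem gain (hK : Normalized K) {σ : ℝ} (hσ : 0 < σ) (hσ1 : σ ≤ 1) (hu : ‖u‖ = 1) {x₁ : E3} {τ : ℝ}
    (hτ : 0 < τ) (h1 : FlatCenter K σ x₁) (h2 : FlatCenter K σ (x₁ + τ • u)) :
    τ * (volume ((ℝ ∙ u)ᗮ.orthogonalProjectionOnto '' K)).toReal ≤ 3 * volume.real K - σ / 2 := by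
  obtain ⟨t, n, htτ, ht2, hnu, ⟨a, ha, hb⟩, hsupp⟩ := exists_support hK hu h1.1 h2.1
  set D := (volume ((ℝ ∙ u)ᗮ.orthogonalProjectionOnto '' K)).toReal with hD
  have hD1 : 1 ≤ D := one_le_shadow_toReal hK hu
  obtain ⟨f, e, hfr, hnf⟩ := exists_frame hu n
  have htpos : 0 < t := by linarith
  -- the plain Steiner bound
  have hst : t * D ≤ 3 * volume.real K := by
    have h0 := hfr.chord_of_mem ha hb
    have := hfr.steiner hK htpos (r := 0) le_rfl h0 (by simpa using h0)
    rw [← hD] at this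
    have e1 : t * (D / 3 + 0 / 3) = t * D / 3 := by ring
    rw [e1] at this
    linarith
  set ε := t - τ with hε
  by_cases hcase : σ / 2 ≤ ε
  · have hτt : τ = t - ε := by rw [hε]; ring
    have h3 : (σ / 2) * 1 ≤ ε * D := mul_le_mul hcase hD1 (by norm_num) (by linarith)
    have : τ * D = t * D - ε * D := by rw [hτt]; ring
    linarith
  · push Not at hcase
    have hτ1 : 1 ≤ τ := by rw [hε] at hcase; linarith
    have hnval : ∀ (a b : ℝ), n (a • f + b • u) = b * n u := by
      intro a b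
      simp [hnf]
    -- slopes at the upper point
    have hsl2 := flat_slice hK hσ hfr.nf hu hfr.fu h2 hcase (by
      intro a' b' hp hm
      have h5 := hsupp x₁ h1.1 _ hp
      have h6 := hsupp x₁ h1.1 _ hm
      have e5 : x₁ + τ • u + (a' • f + b' • u) - x₁ = a' • f + (τ + b') • u := by
        rw [add_smul]; abel
      have e6 : x₁ + τ • u - (a' • f + b' • u) - x₁ = (-a') • f + (τ - b') • u := by
        rw [sub_smul, neg_smul]; abel
      rw [e5, hnval] at h5
      rw [e6, hnval] at h6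
      have h7 : τ + b' ≤ t := le_of_mul_le_mul_right h5 hnu
      have h8 : τ - b' ≤ t := le_of_mul_le_mul_right h6 hnu
      rw [abs_le, hε]
      constructor <;> linarith)
    have hsl1 := flat_slice hK hσ hfr.nf hu hfr.fu h1 hcase (by
      intro a' b' hp hm
      have h5 := hsupp _ hp _ h2.1
      have h6 := hsupp _ hm _ h2.1
      have e5 : x₁ + τ • u - (x₁ + (a' • f + b' • u)) = (-a') • f + (τ - b') • u := by
        rw [sub_smul, neg_smul]; abel
      have e6 : x₁ + τ • u - (x₁ - (a' • f + b' • u)) = a' • f + (τ + b') • u := by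
        rw [add_smul]; abel
      rw [e5, hnval] at h5
      rw [e6, hnval] at h6
      have h7 : τ - b' ≤ t := le_of_mul_le_mul_right h5 hnu
      have h8 : τ + b' ≤ t := le_of_mul_le_mul_right h6 hnu
      rw [abs_le, hε]
      constructor <;> linarith)
    obtain ⟨b₂, h2p, h2m⟩ := hsl2
    obtain ⟨b₁, h1p, h1m⟩ := hsl1
    have h1f : ⟪f, f⟫ = 1 := by rw [real_inner_self_eq_norm_sq, hfr.nf]; norm_num
    have h1u : ⟪u, u⟫ = 1 := by rw [real_inner_self_eq_norm_sq, hu]; norm_num
    have hef : ⟪e, f⟫ = 0 := by rw [real_inner_comm]; exact hfr.fe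
    have huf : ⟪u, f⟫ = 0 := by rw [real_inner_comm]; exact hfr.fu
    have heu := hfr.eu
    have hfu := hfr.fu
    set y₁ := ⟪f, x₁⟫ with hy₁
    set y₂ := ⟪e, x₁⟫ with hy₂
    set z := ⟪u, x₁⟫ with hz
    set K' := coord f e u '' K with hK'
    have hK'conv : Convex ℝ K' := convex_coord_image hK.convex f e u
    have c0 : (y₁, y₂) ∈ chordSet K' τ := hfr.chord_of_mem h1.1 h2.1
    -- the four images
    have c2p : ((y₁ + σ / 2, y₂), z + τ + b₂) ∈ K' := by
      refine ⟨_, h2p, ?_⟩
      simp [coord, inner_add_right, inner_smul_right, hfr.nf, hu, hef, huf, heu, hfu, ← hy₁, ← hy₂, ← hz]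
    have c2m : ((y₁ - σ / 2, y₂), z + τ - b₂) ∈ K' := by
      refine ⟨_, h2m, ?_⟩
      simp [coord, inner_add_right, inner_sub_right, inner_smul_right, hfr.nf, hu, hef, huf, heu, hfu,
        ← hy₁, ← hy₂, ← hz]
    have c1p : ((y₁ + σ / 2, y₂), z + b₁) ∈ K' := by
      refine ⟨_, h1p, ?_⟩
      simp [coord, inner_add_right, inner_smul_right, hfr.nf, hu, hef, huf, heu, hfu, ← hy₁, ← hy₂, ← hz]
    have c1m : ((y₁ - σ / 2, y₂), z - b₁) ∈ K' := by
      refine ⟨_, h1m, ?_⟩
      simp [coord, inner_add_right, inner_sub_right, inner_smul_right, hfr.nf, hu, hef, huf, heu, hfu,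
        ← hy₁, ← hy₂, ← hz]
    -- intermediate chords by convexity
    have hvert : ∀ {y : ℝ × ℝ} {p q : ℝ}, (y, p) ∈ K' → (y, q) ∈ K' → p + τ ≤ q →
        y ∈ chordSet K' τ := by
      intro y p q hp hq hpq
      refine ⟨p, hp, ?_⟩
      have hne : 0 < q - p := by linarith
      have := hK'conv hp hq (a := 1 - τ / (q - p)) (b := τ / (q - p))
        (by rw [sub_nonneg, div_le_one hne]; linarith) (by positivity) (by ring)
      convert this using 1
      simp only [Prod.smul_mk, Prod.mk_add_mk, smul_eq_mul]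
      congr 1
      · rw [← add_smul]; simp
      · field_simp
        ring
    have hfin : τ * (D / 3 + (σ / 2) / 3) ≤ volume.real K := by
      by_cases hbb : b₁ ≤ b₂
      · have c3 : (y₁ + σ / 2, y₂) ∈ chordSet K' τ := hvert c1p c2p (by linarith)
        exact hfr.steiner hK hτ (by positivity) c0 c3
      · push Not at hbb
        have c3 : (y₁ - σ / 2, y₂) ∈ chordSet K' τ := hvert c1m c2m (by linarith)
        refine hfr.steiner hK hτ (r := σ / 2) (x := y₁ - σ / 2) (y := y₂) (by positivity) c3 ?_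
        simpa using c0
    have e2 : τ * (D / 3 + (σ / 2) / 3) = (τ * D + τ * (σ / 2)) / 3 := by ring
    rw [e2] at hfin
    have h3 : 1 * (σ / 2) ≤ τ * (σ / 2) := mul_le_mul_of_nonneg_right hτ1 (by positivity)
    linarith

end Vale.Agent.P243
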