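import Vale.Agent.P243.Gain

open MeasureTheory Set Metric Filter Topology Module
open scoped ENNReal Pointwise RealInnerProductSpace

namespace Vale.Agent.P243

variable {K : Set E3} {f e u : E3}

lemma Frame.measurableSet_image (h : Frame f e u) {S : Set E3} (hS : MeasurableSet S) :
    MeasurableSet (coord f e u '' S) := by
  obtain ⟨Φ, hΦ, hc⟩ := h.exists_equiv
  have e1 : coord f e u = Φ := by
    ext x <;> rw [hc]
  rw [e1]
  exact Φ.measurableSet_image.2 hS

lemma Frame.measurableSet_image2 (h : Frame f e u) {S : Set (ℝ ∙ u)ᗮ} (hS : MeasurableSet S) :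
    MeasurableSet ((fun y : (ℝ ∙ u)ᗮ => ((⟪f, (y : E3)⟫, ⟪e, (y : E3)⟫) : ℝ × ℝ)) '' S) := by
  obtain ⟨ψ, hψ, hc⟩ := h.exists_equiv2
  have e1 : (fun y : (ℝ ∙ u)ᗮ => ((⟪f, (y : E3)⟫, ⟪e, (y : E3)⟫) : ℝ × ℝ)) = ψ := by
    funext y
    rw [hc]
  rw [e1]
  exact ψ.measurableSet_image.2 hS

lemma Frame.coord_injective (h : Frame f e u) : Function.Injective (coord f e u) := by
  obtain ⟨Φ, hΦ, hc⟩ := h.exists_equiv
  have e1 : coord f e u = Φ := by
    ext x <;> rw [hc]
  rw [e1]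
  exact Φ.injective

/-- The main Fubini bound : if the chords parallel to `u` of `G` are shorter than `M`, then the part
of `G` that projects into `B` has volume at most `M` times the area of `B`. -/
theorem fubini_bound (hu : ‖u‖ = 1) {G : Set E3} (hG : MeasurableSet G) {M : ℝ} (hM0 : 0 ≤ M)
    (hM : ∀ x₁ τ, 0 < τ → x₁ ∈ G → x₁ + τ • u ∈ G → τ ≤ M) (B : Set (ℝ ∙ u)ᗮ) :
    volume (G ∩ (ℝ ∙ u)ᗮ.orthogonalProjectionOnto ⁻¹' B) ≤ ENNReal.ofReal M * volume B := by
  obtain ⟨f, e, hfr, -⟩ := exists_frame hu 0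
  set B' := toMeasurable volume B with hB'
  have hB'm : MeasurableSet B' := measurableSet_toMeasurable _ _
  have hB'v : volume B' = volume B := measure_toMeasurable _
  rw [← hB'v]
  have hsub : G ∩ (ℝ ∙ u)ᗮ.orthogonalProjectionOnto ⁻¹' B
      ⊆ G ∩ (ℝ ∙ u)ᗮ.orthogonalProjectionOnto ⁻¹' B' :=
    inter_subset_inter_right _ (preimage_mono (subset_toMeasurable _ _))
  refine (measure_mono hsub).trans ?_
  set G' := G ∩ (ℝ ∙ u)ᗮ.orthogonalProjectionOnto ⁻¹' B' with hG'
  have hG'm : MeasurableSet G' :=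
    hG.inter ((ContinuousLinearMap.measurable _) hB'm)
  set A := coord f e u '' G' with hA
  have hAm : MeasurableSet A := hfr.measurableSet_image hG'm
  set Bc := (fun y : (ℝ ∙ u)ᗮ => ((⟪f, (y : E3)⟫, ⟪e, (y : E3)⟫) : ℝ × ℝ)) '' B' with hBc
  have hBcm : MeasurableSet Bc := hfr.measurableSet_image2 hB'm
  rw [← hfr.volume_image, ← hfr.volume_image2, ← hA, ← hBc]
  -- Fubini
  rw [Measure.volume_eq_prod, Measure.prod_apply hAm]
  have hsec : ∀ y : ℝ × ℝ, volume (Prod.mk y ⁻¹' A) ≤ Bc.indicator (fun _ => ENNReal.ofReal M) y := by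
    intro y
    by_cases hy : y ∈ Bc
    · rw [indicator_of_mem hy]
      refine (Real.volume_le_diam _).trans ?_
      refine Metric.ediam_le ?_
      intro z₁ hz₁ z₂ hz₂
      obtain ⟨x₁, hx₁, hc₁⟩ := hz₁
      obtain ⟨x₂, hx₂, hc₂⟩ := hz₂
      -- the key bound on the distance
      have key : ∀ {x₁ x₂ : E3} {z₁ z₂ : ℝ}, x₁ ∈ G → x₂ ∈ G → coord f e u x₁ = (y, z₁) →
          coord f e u x₂ = (y, z₂) → z₁ < z₂ → z₂ - z₁ ≤ M := by
        intro x₁ x₂ z₁ z₂ h1 h2 c1 c2 hlt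
        apply hM x₁ (z₂ - z₁) (by linarith) h1
        have : x₁ + (z₂ - z₁) • u = x₂ := by
          apply hfr.coord_injective
          rw [hfr.coord_add_smul, c2]
          have e1 : (⟪f, x₁⟫, ⟪e, x₁⟫) = y := congrArg Prod.fst c1
          have e2 : ⟪u, x₁⟫ = z₁ := congrArg Prod.snd c1
          rw [e1, e2]
          congr 1
          ring
        rw [this]
        exact h2
      rw [edist_dist]
      apply ENNReal.ofReal_le_ofReal
      rw [Real.dist_eq]
      rcases lt_trichotomy z₁ z₂ with hlt | heq | hgt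
      · rw [abs_of_neg (by linarith)]
        have := key hx₁.1 hx₂.1 hc₁ hc₂ hlt
        linarith
      · rw [heq, sub_self, abs_zero]
        exact hM0
      · rw [abs_of_pos (by linarith)]
        exact key hx₂.1 hx₁.1 hc₂ hc₁ hgt
    · rw [indicator_of_notMem hy]
      have : Prod.mk y ⁻¹' A = ∅ := by
        ext z
        simp only [mem_preimage, mem_empty_iff_false, iff_false]
        rintro ⟨x, hx, hc⟩
        apply hy
        refine ⟨_, hx.2, ?_⟩
        have e1 : (⟪f, x⟫, ⟪e, x⟫) = y := congrArg Prod.fst hc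
        rw [← e1]
        simp only [hfr.inner_proj_f, hfr.inner_proj_e]
      rw [this, measure_empty]
  refine (lintegral_mono hsec).trans ?_
  rw [lintegral_indicator hBcm, setLIntegral_const]

/-- The normalized body has volume at least `2/3`. -/
lemma two_thirds_le_volume (hK : Normalized K) : 2 / 3 ≤ volume.real K := by
  obtain ⟨u, hu⟩ : ∃ u : E3, ‖u‖ = 1 := ⟨EuclideanSpace.single 0 1, by simp⟩
  obtain ⟨f, e, hfr, -⟩ := exists_frame hu 0
  have h1 : -u ∈ K := hK.ball (by simp [hu])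
  have h2 : -u + (2 : ℝ) • u ∈ K := by
    have : -u + (2 : ℝ) • u = u := by rw [two_smul]; abel
    rw [this]
    exact hK.ball (by simp [hu])
  have h0 := hfr.chord_of_mem h1 h2
  have := hfr.steiner hK (t := 2) (by norm_num) (r := 0) le_rfl h0 (by simpa using h0)
  have hD := one_le_shadow_toReal hK hu
  linarith

/-- The main theorem for a normalized body. -/
theorem normalized_bound (hK : Normalized K) (hvol : volume.real K ≤ 2744) {ι : Type*} [Fintype ι]
    (u : ι → E3) (hu : ∀ i, ‖u i‖ = 1) (B : ∀ i, Set (ℝ ∙ u i)ᗮ)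
    (hcov : ∀ x ∈ K, ∃ i, (ℝ ∙ u i)ᗮ.orthogonalProjectionOnto x ∈ B i) :
    ENNReal.ofReal (1 / 3 + 1e-18) ≤
      ∑ i, volume (B i) / volume ((ℝ ∙ u i)ᗮ.orthogonalProjectionOnto '' K) := by
  set σ : ℝ := 1e-12 with hσ
  set l₀ : ℝ := 8e-18 with hl₀
  have hσ0 : 0 < σ := by rw [hσ]; norm_num
  have hσ1 : σ < 1 := by rw [hσ]; norm_num
  have hσ2 : σ ≤ 1 / 100 := by rw [hσ]; norm_num
  have hl0 : 0 < l₀ := by rw [hl₀]; norm_num
  have hl1 : l₀ < 1 := by rw [hl₀]; norm_num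
  set m := volume.real K with hm
  have hm23 : 2 / 3 ≤ m := two_thirds_le_volume hK
  set G := goodSet K σ l₀ with hG
  have hGm : MeasurableSet G := hK.measurableSet_goodSet σ l₀
  have hGvol : (1 - (3 * l₀ + 180 * σ ^ 3 / l₀)) * m ≤ volume.real G :=
    hK.measureReal_goodSet_ge hσ0 hσ2 hl0 hl1
  set c : ℝ := 3 * m - σ / 2 with hc
  have hc0 : 0 < c := by rw [hc]; linarith
  set D : ι → ℝ≥0∞ := fun i => volume ((ℝ ∙ u i)ᗮ.orthogonalProjectionOnto '' K) with hD
  have hDtop : ∀ i, D i ≠ ⊤ := fun i =>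
    (hK.compact.image (ContinuousLinearMap.continuous _)).measure_lt_top.ne
  have hD1 : ∀ i, 1 ≤ (D i).toReal := fun i => one_le_shadow_toReal hK (hu i)
  have hD0 : ∀ i, D i ≠ 0 := by
    intro i h
    have := hD1 i
    rw [h] at this
    norm_num at this
  -- bound for one piece
  have hpiece : ∀ i, volume (G ∩ (ℝ ∙ u i)ᗮ.orthogonalProjectionOnto ⁻¹' B i)
      ≤ ENNReal.ofReal c * (volume (B i) / D i) := by
    intro i
    have hbound := fubini_bound (hu i) hGm (M := c / (D i).toReal)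
      (div_nonneg hc0.le (by linarith [hD1 i])) (by
        intro x₁ τ hτ h1 h2
        have hf1 := hK.flatCenter_of_mem_goodSet hσ0 hσ1 h1
        have hf2 := hK.flatCenter_of_mem_goodSet hσ0 hσ1 h2
        have := gain hK hσ0 hσ1.le (hu i) hτ hf1 hf2
        rw [le_div_iff₀ (by linarith [hD1 i])]
        exact this) (B i)
    refine hbound.trans (le_of_eq ?_)
    rw [ENNReal.ofReal_div_of_pos (by linarith [hD1 i]), ENNReal.ofReal_toReal (hDtop i)]
    simp only [div_eq_mul_inv]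
    ring
  have hcover : G ⊆ ⋃ i, (G ∩ (ℝ ∙ u i)ᗮ.orthogonalProjectionOnto ⁻¹' B i) := by
    intro x hx
    obtain ⟨i, hi⟩ := hcov x hx.1
    exact mem_iUnion.2 ⟨i, hx, hi⟩
  set R := ∑ i, volume (B i) / D i with hR
  have hmain : volume G ≤ ENNReal.ofReal c * R := by
    calc volume G ≤ volume (⋃ i, (G ∩ (ℝ ∙ u i)ᗮ.orthogonalProjectionOnto ⁻¹' B i)) :=
          measure_mono hcover
      _ ≤ ∑ i, volume (G ∩ (ℝ ∙ u i)ᗮ.orthogonalProjectionOnto ⁻¹' B i) := measure_iUnion_fintype_le _ _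
      _ ≤ ∑ i, ENNReal.ofReal c * (volume (B i) / D i) := Finset.sum_le_sum fun i _ => hpiece i
      _ = ENNReal.ofReal c * R := by rw [hR, Finset.mul_sum]
  by_cases hRtop : R = ⊤
  · rw [hRtop]; exact le_top
  rw [ENNReal.ofReal_le_iff_le_toReal hRtop]
  have hGfin : volume G ≠ ⊤ :=
    (lt_of_le_of_lt (measure_mono (hK.goodSet_subset σ l₀)) hK.compact.measure_lt_top).ne
  have h1 : volume.real G ≤ c * R.toReal := by
    have := ENNReal.toReal_mono (ENNReal.mul_ne_top ENNReal.ofReal_ne_top hRtop) hmain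
    rwa [ENNReal.toReal_mul, ENNReal.toReal_ofReal hc0.le] at this
  -- numerics
  have h2 : (1 - (3 * l₀ + 180 * σ ^ 3 / l₀)) * m ≤ c * R.toReal := hGvol.trans h1
  have h3 : (1 / 3 + 1e-18) * c ≤ (1 - (3 * l₀ + 180 * σ ^ 3 / l₀)) * m := by
    rw [hc, hσ, hl₀]
    norm_num
    nlinarith
  by_contra hcon
  push Not at hcon
  have h4 := mul_lt_mul_of_pos_left hcon hc0
  nlinarith

end Vale.Agent.P243
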