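import Mathlib

open MeasureTheory Set
open scoped ENNReal Pointwise

namespace Vale.Agent.P243

/-- The points of the base plane over which the section of `K` has two points at height
distance `t`. -/
def chordSet (K : Set ((ℝ × ℝ) × ℝ)) (t : ℝ) : Set (ℝ × ℝ) :=
  {y | ∃ z, (y, z) ∈ K ∧ (y, z + t) ∈ K}

/-- The Minkowski sum of a planar set with the horizontal segment `[0, ρ] × {0}`. -/
def segSum (D : Set (ℝ × ℝ)) (ρ : ℝ) : Set (ℝ × ℝ) :=
  (fun p : (ℝ × ℝ) × ℝ => (p.1.1 + p.2, p.1.2)) '' (D ×ˢ Icc 0 ρ)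

lemma isCompact_segSum {D : Set (ℝ × ℝ)} (hD : IsCompact D) (ρ : ℝ) : IsCompact (segSum D ρ) := by
  apply (hD.prod isCompact_Icc).image
  fun_prop

/-- The area of `D + [0,ρ]e₁` is at least the area of `D` plus `ρ` times the width of `D`. -/
lemma volume_add_seg {D : Set (ℝ × ℝ)} (hD : IsCompact D) (hconv : Convex ℝ D) {ρ : ℝ}
    (hρ : 0 ≤ ρ) :
    volume D + ENNReal.ofReal ρ * volume (Prod.snd '' D) ≤ volume (segSum D ρ) := by
  have mD : MeasurableSet D := hD.measurableSet
  have mT : MeasurableSet (segSum D ρ) := (isCompact_segSum hD ρ).measurableSet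
  have mS : MeasurableSet (Prod.snd '' D) := (hD.image continuous_snd).measurableSet
  rw [Measure.volume_eq_prod, Measure.prod_apply_symm mD, Measure.prod_apply_symm mT]
  have hf : Measurable fun h : ℝ => volume ((fun x : ℝ => (x, h)) ⁻¹' D) :=
    measurable_measure_prodMk_right mD
  have e : ENNReal.ofReal ρ * volume (Prod.snd '' D)
      = ∫⁻ h, (Prod.snd '' D).indicator (fun _ => ENNReal.ofReal ρ) h := by
    rw [lintegral_indicator mS, setLIntegral_const]
  rw [e, ← lintegral_add_left hf]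
  apply lintegral_mono
  intro h
  by_cases hh : h ∈ Prod.snd '' D
  · simp only [indicator_of_mem hh]
    -- the section of D at height h
    set S : Set ℝ := (fun x : ℝ => (x, h)) ⁻¹' D with hS
    have hScomp : IsCompact S := by
      have : S = Prod.fst '' (D ∩ Prod.snd ⁻¹' {h}) := by
        ext x
        simp only [hS, mem_preimage, mem_image, mem_inter_iff, mem_singleton_iff]
        constructor
        · intro hx
          exact ⟨(x, h), ⟨hx, rfl⟩, rfl⟩
        · rintro ⟨⟨a, b⟩, ⟨h1, h2⟩, rfl⟩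
          simp only at h2
          subst h2
          exact h1
      rw [this]
      exact (hD.inter_right (isClosed_singleton.preimage continuous_snd)).image continuous_fst
    have hSne : S.Nonempty := by
      obtain ⟨⟨a, b⟩, h1, h2⟩ := hh
      simp only at h2
      subst h2
      exact ⟨a, h1⟩
    have ha := hScomp.sInf_mem hSne
    have hb := hScomp.sSup_mem hSne
    set a := sInf S
    set b := sSup S
    have hab : a ≤ b := csInf_le_csSup hSne hScomp.bddBelow hScomp.bddAbove |>.trans le_rfl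
    have h1 : S ⊆ Icc a b := fun x hx =>
      ⟨csInf_le hScomp.bddBelow hx, le_csSup hScomp.bddAbove hx⟩
    have h2 : Icc a (b + ρ) ⊆ (fun x : ℝ => (x, h)) ⁻¹' (segSum D ρ) := by
      intro x hx
      simp only [mem_preimage, segSum, mem_image, mem_prod]
      by_cases hxb : x ≤ b
      · -- x is in the section of D
        have hxS : (x, h) ∈ D := by
          have hSc : Convex ℝ S := by
            intro u hu v hv p q hp hq hpq
            have := hconv hu hv hp hq hpq
            simp only [hS, mem_preimage]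
            convert this using 1
            ext
            · simp
            · simp only [Prod.snd_add, Prod.smul_snd, smul_eq_mul]
              rw [← add_mul, hpq, one_mul]
          exact hSc.ordConnected.out ha hb ⟨hx.1, hxb⟩
        exact ⟨((x, h), 0), ⟨hxS, ⟨le_rfl, hρ⟩⟩, by simp⟩
      · push Not at hxb
        refine ⟨((b, h), x - b), ⟨hb, ⟨by linarith, by linarith [hx.2]⟩⟩, ?_⟩
        simp
    calc volume S + ENNReal.ofReal ρ ≤ volume (Icc a b) + ENNReal.ofReal ρ := by
          gcongr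
      _ = ENNReal.ofReal (b - a) + ENNReal.ofReal ρ := by rw [Real.volume_Icc]
      _ = ENNReal.ofReal (b - a + ρ) := (ENNReal.ofReal_add (by linarith) hρ).symm
      _ = volume (Icc a (b + ρ)) := by rw [Real.volume_Icc]; congr 1; ring
      _ ≤ _ := measure_mono h2
  · simp only [indicator_of_notMem hh, add_zero]
    apply measure_mono
    intro x hx
    simp only [mem_preimage] at hx
    exact absurd ⟨(x, h), hx, rfl⟩ hh

lemma chordSet_comb {K : Set ((ℝ × ℝ) × ℝ)} (hconv : Convex ℝ K) {s t p q : ℝ} {ya yb : ℝ × ℝ}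
    (ha : ya ∈ chordSet K s) (hb : yb ∈ chordSet K t) (hp : 0 ≤ p) (hq : 0 ≤ q) (hpq : p + q = 1) :
    p • ya + q • yb ∈ chordSet K (p * s + q * t) := by
  obtain ⟨za, ha1, ha2⟩ := ha
  obtain ⟨zb, hb1, hb2⟩ := hb
  refine ⟨p * za + q * zb, ?_, ?_⟩
  · have := hconv ha1 hb1 hp hq hpq
    simpa using this
  · have := hconv ha2 hb2 hp hq hpq
    convert this using 1
    simp only [Prod.smul_mk, Prod.mk_add_mk, smul_eq_mul]
    congr 1
    ring

lemma chordSet_mono_zero {K : Set ((ℝ × ℝ) × ℝ)} {y : ℝ × ℝ} :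
    y ∈ chordSet K 0 ↔ y ∈ Prod.fst '' K := by
  constructor
  · rintro ⟨z, h, -⟩
    exact ⟨(y, z), h, rfl⟩
  · rintro ⟨⟨a, b⟩, h, rfl⟩
    exact ⟨b, h, by simpa using h⟩

/-- The region under the chord-length graph, truncated at height `τ`. -/
def chordRegion (K : Set ((ℝ × ℝ) × ℝ)) (τ : ℝ) : Set ((ℝ × ℝ) × ℝ) :=
  {q | q.2 ∈ Icc 0 τ ∧ q.1 ∈ chordSet K q.2}

lemma isCompact_chordRegion {K : Set ((ℝ × ℝ) × ℝ)} (hK : IsCompact K) (τ : ℝ) :
    IsCompact (chordRegion K τ) := by
  have hQ : IsCompact ({p : ((ℝ × ℝ) × ℝ) × ℝ | p.1 ∈ K ∧ p.2 ∈ Icc 0 τ ∧ (p.1.1, p.1.2 + p.2) ∈ K}) := by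
    apply (hK.prod (isCompact_Icc (a := (0:ℝ)) (b := τ))).of_isClosed_subset
    · have h1 : IsClosed {p : ((ℝ × ℝ) × ℝ) × ℝ | p.1 ∈ K} := hK.isClosed.preimage continuous_fst
      have h2 : IsClosed {p : ((ℝ × ℝ) × ℝ) × ℝ | p.2 ∈ Icc 0 τ} :=
        isClosed_Icc.preimage continuous_snd
      have h3 : IsClosed {p : ((ℝ × ℝ) × ℝ) × ℝ | (p.1.1, p.1.2 + p.2) ∈ K} :=
        hK.isClosed.preimage (by fun_prop)
      exact h1.inter (h2.inter h3)
    · rintro p ⟨h1, h2, -⟩
      exact ⟨h1, h2⟩
  have : chordRegion K τ = (fun p : ((ℝ × ℝ) × ℝ) × ℝ => (p.1.1, p.2)) ''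
      {p : ((ℝ × ℝ) × ℝ) × ℝ | p.1 ∈ K ∧ p.2 ∈ Icc 0 τ ∧ (p.1.1, p.1.2 + p.2) ∈ K} := by
    ext ⟨y, t⟩
    simp only [chordRegion, chordSet, mem_ofPred_eq, mem_image]
    constructor
    · rintro ⟨h1, z, h2, h3⟩
      exact ⟨((y, z), t), ⟨h2, h1, h3⟩, rfl⟩
    · rintro ⟨⟨⟨y', z⟩, t'⟩, ⟨h2, h1, h3⟩, h4⟩
      simp only [Prod.mk.injEq] at h4
      obtain ⟨rfl, rfl⟩ := h4
      exact ⟨h1, z, h2, h3⟩
  rw [this]
  exact hQ.image (by fun_prop)

/-- Truncated region has no more volume than `K`. -/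
lemma volume_chordRegion_le {K : Set ((ℝ × ℝ) × ℝ)} (hK : IsCompact K) (hconv : Convex ℝ K)
    (τ : ℝ) : volume (chordRegion K τ) ≤ volume K := by
  rw [Measure.volume_eq_prod, Measure.prod_apply (isCompact_chordRegion hK τ).measurableSet,
    Measure.prod_apply hK.measurableSet]
  apply lintegral_mono
  intro y
  set S : Set ℝ := Prod.mk y ⁻¹' K with hS
  have hSconv : Convex ℝ S := by
    intro u hu v hv p q hp hq hpq
    have := hconv hu hv hp hq hpq
    have e : (y, p • u + q • v) = p • (y, u) + q • (y, v) := by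
      apply Prod.ext
      · change y = p • y + q • y
        rw [← add_smul, hpq, one_smul]
      · simp
    simp only [hS, mem_preimage]
    rw [e]
    exact this
  have hSb : Bornology.IsBounded S := by
    have : S ⊆ Prod.snd '' K := fun z hz => ⟨(y, z), hz, rfl⟩
    exact (hK.image continuous_snd).isBounded.subset this
  have hfin : volume S ≠ ⊤ := hSb.measure_lt_top.ne
  have : Prod.mk y ⁻¹' chordRegion K τ ⊆ Icc 0 (volume S).toReal := by
    intro t ht
    obtain ⟨ht1, z, h2, h3⟩ := ht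
    refine ⟨ht1.1, ?_⟩
    have hsub : Icc z (z + t) ⊆ S := hSconv.ordConnected.out h2 h3
    have := measure_mono (μ := volume) hsub
    rw [Real.volume_Icc] at this
    have h4 := ENNReal.toReal_mono hfin this
    rw [ENNReal.toReal_ofReal (by simpa using ht1.1)] at h4
    simpa using h4
  calc volume (Prod.mk y ⁻¹' chordRegion K τ) ≤ volume (Icc 0 (volume S).toReal) := measure_mono this
    _ = volume S := by
      rw [Real.volume_Icc, sub_zero, ENNReal.ofReal_toReal hfin]

/-- Polynomial integral needed in the refined Steiner inequality. -/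
lemma integral_poly {τ d b : ℝ} (hτ : 0 < τ) :
    ∫ t in (0 : ℝ)..τ, ((1 - t / τ) ^ 2 * d + (1 - t / τ) * (t / τ) * b) = τ * (d / 3 + b / 6) := by
  have hτ' : τ ≠ 0 := hτ.ne'
  let P : ℝ → ℝ := fun t => d * (t - t ^ 2 / τ + t ^ 3 / (3 * τ ^ 2))
    + b * (t ^ 2 / (2 * τ) - t ^ 3 / (3 * τ ^ 2))
  have hP : ∀ t ∈ uIcc 0 τ, HasDerivAt P ((1 - t / τ) ^ 2 * d + (1 - t / τ) * (t / τ) * b) t := by
    intro t _
    have h1 : HasDerivAt (fun t : ℝ => t) 1 t := hasDerivAt_id t
    have h2 : HasDerivAt (fun t : ℝ => t ^ 2) (2 * t) t := by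
      simpa using hasDerivAt_pow 2 t
    have h3 : HasDerivAt (fun t : ℝ => t ^ 3) (3 * t ^ 2) t := by
      simpa using hasDerivAt_pow 3 t
    have := (((h1.sub (h2.div_const τ)).add (h3.div_const (3 * τ ^ 2))).const_mul d).add
      (((h2.div_const (2 * τ)).sub (h3.div_const (3 * τ ^ 2))).const_mul b)
    refine HasDerivAt.congr_deriv (f := P) this ?_
    field_simp
    ring
  rw [intervalIntegral.integral_eq_sub_of_hasDerivAt hP]
  · simp only [P]
    have : (0:ℝ) ^ 2 / τ = 0 := by simp
    simp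
    field_simp
    ring
  · apply Continuous.intervalIntegrable
    fun_prop

/-- The superlevel set of the chord length at level `t = μ τ` contains the Minkowski combination
`(1 - μ) D + μ [y₀, y₀ + r e₁]`, which gives a lower bound for its area. -/
lemma volume_chordSet_ge {K : Set ((ℝ × ℝ) × ℝ)} (hK : IsCompact K) (hconv : Convex ℝ K)
    {τ r : ℝ} (hτ : 0 < τ) (hr : 0 ≤ r) {x h : ℝ}
    (h0 : (x, h) ∈ chordSet K τ) (h1 : (x + r, h) ∈ chordSet K τ) {t : ℝ} (ht : t ∈ Ioo 0 τ) :
    ENNReal.ofReal ((1 - t / τ) ^ 2 * (volume (Prod.fst '' K)).toReal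
      + (1 - t / τ) * (t / τ) * (r * (volume (Prod.snd '' (Prod.fst '' K))).toReal))
      ≤ volume (chordSet K t) := by
  set D := Prod.fst '' K with hD
  have hDc : IsCompact D := hK.image continuous_fst
  have hDconv : Convex ℝ D := hconv.linear_image (LinearMap.fst ℝ (ℝ × ℝ) ℝ)
  have hSc : IsCompact (Prod.snd '' D) := hDc.image continuous_snd
  set μ := t / τ with hμ
  have hμ0 : 0 < μ := div_pos ht.1 hτ
  have hμ1 : μ < 1 := (div_lt_one hτ).2 ht.2
  set ρ' := 1 - μ with hρ'
  have hρ'0 : 0 < ρ' := by linarith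
  set ρ := μ * r / ρ' with hρ
  have hρ0 : 0 ≤ ρ := by positivity
  set T := segSum D ρ with hT
  -- the segment lies in the chord set at level τ
  have hseg : ∀ s ∈ Icc 0 r, (x + s, h) ∈ chordSet K τ := by
    intro s hs
    have hI : Convex ℝ {s : ℝ | (x + s, h) ∈ chordSet K τ} := by
      intro u hu v hv p q hp hq hpq
      have := chordSet_comb hconv hu hv hp hq hpq
      rw [show p * τ + q * τ = τ by rw [← add_mul, hpq, one_mul]] at this
      have e : (x + (p • u + q • v), h) = p • (x + u, h) + q • (x + v, h) := by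
        apply Prod.ext
        · simp only [Prod.fst_add, Prod.smul_fst, smul_eq_mul]
          have : x = p * x + q * x := by rw [← add_mul, hpq, one_mul]
          nlinarith
        · simp only [Prod.snd_add, Prod.smul_snd, smul_eq_mul]
          rw [← add_mul, hpq, one_mul]
      change (x + (p • u + q • v), h) ∈ chordSet K τ
      rw [e]
      exact this
    have h0' : (0:ℝ) ∈ {s : ℝ | (x + s, h) ∈ chordSet K τ} := by
      change (x + 0, h) ∈ chordSet K τ
      simpa using h0
    exact hI.ordConnected.out h0' h1 hs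
  -- inclusion
  have hsub : (fun z : ℝ × ℝ => z + μ • (x, h)) '' (ρ' • T) ⊆ chordSet K t := by
    rintro _ ⟨_, ⟨y', hy', rfl⟩, rfl⟩
    obtain ⟨⟨⟨a, b⟩, s⟩, ⟨hab, hs⟩, rfl⟩ := hy'
    simp only
    have hs'' : ρ' * s / μ ∈ Icc 0 r := by
      constructor
      · have := hs.1
        positivity
      · rw [div_le_iff₀ hμ0]
        have h2 : s ≤ μ * r / ρ' := hs.2
        rw [le_div_iff₀ hρ'0] at h2
        linarith
    have h3 := hseg _ hs''
    have h4 : (a, b) ∈ chordSet K 0 := chordSet_mono_zero.2 hab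
    have h5 := chordSet_comb hconv h4 h3 hρ'0.le hμ0.le (by simp [hρ'])
    rw [show ρ' * 0 + μ * τ = t by simp only [hμ]; field_simp; ring] at h5
    convert h5 using 1
    apply Prod.ext
    · simp only [Prod.fst_add, Prod.smul_fst, smul_eq_mul]
      have e : μ * (ρ' * s / μ) = ρ' * s := by field_simp
      rw [mul_add μ x, e]
      ring
    · simp only [Prod.snd_add, Prod.smul_snd, smul_eq_mul]
  -- volume of the left side
  have hvol : volume ((fun z : ℝ × ℝ => z + μ • (x, h)) '' (ρ' • T))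
      = ENNReal.ofReal (ρ' ^ 2) * volume T := by
    rw [image_add_right, measure_preimage_add_right, Measure.addHaar_smul]
    have : Module.finrank ℝ (ℝ × ℝ) = 2 := by simp
    rw [this, abs_of_pos (by positivity)]
  have hTv := volume_add_seg hDc hDconv hρ0
  have hdfin : volume D ≠ ⊤ := hDc.measure_lt_top.ne
  have hWfin : volume (Prod.snd '' D) ≠ ⊤ := hSc.measure_lt_top.ne
  refine le_trans ?_ (measure_mono hsub)
  rw [hvol]
  calc ENNReal.ofReal (ρ' ^ 2 * (volume D).toReal + ρ' * μ * (r * (volume (Prod.snd '' D)).toReal))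
      = ENNReal.ofReal (ρ' ^ 2) * (volume D + ENNReal.ofReal ρ * volume (Prod.snd '' D)) := by
        rw [show ρ' ^ 2 * (volume D).toReal + ρ' * μ * (r * (volume (Prod.snd '' D)).toReal)
          = ρ' ^ 2 * ((volume D).toReal + ρ * (volume (Prod.snd '' D)).toReal) by
            simp only [hρ]; field_simp]
        rw [ENNReal.ofReal_mul (by positivity), ENNReal.ofReal_add (by positivity) (by positivity),
          ENNReal.ofReal_mul hρ0, ENNReal.ofReal_toReal hdfin, ENNReal.ofReal_toReal hWfin]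
    _ ≤ ENNReal.ofReal (ρ' ^ 2) * volume T := by gcongr

/-- Refined Steiner inequality: if the chord length is at least `τ` on a segment of length `r`
parallel to the first axis, then the volume of `K` is at least
`τ (area(D)/3 + r * W / 6)`, where `D` is the projection of `K` along the third axis and `W` is the
width of `D` in the second axis. -/
theorem steiner_segment {K : Set ((ℝ × ℝ) × ℝ)} (hK : IsCompact K) (hconv : Convex ℝ K)
    {τ r : ℝ} (hτ : 0 < τ) (hr : 0 ≤ r) {x h : ℝ}
    (h0 : (x, h) ∈ chordSet K τ) (h1 : (x + r, h) ∈ chordSet K τ) :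
    ENNReal.ofReal (τ * ((volume (Prod.fst '' K)).toReal / 3
      + r * (volume (Prod.snd '' (Prod.fst '' K))).toReal / 6)) ≤ volume K := by
  set d := (volume (Prod.fst '' K)).toReal with hd
  set W := (volume (Prod.snd '' (Prod.fst '' K))).toReal with hW
  have hd0 : 0 ≤ d := ENNReal.toReal_nonneg
  have hW0 : 0 ≤ W := ENNReal.toReal_nonneg
  let p : ℝ → ℝ := fun t => (1 - t / τ) ^ 2 * d + (1 - t / τ) * (t / τ) * (r * W)
  have hp : Continuous p := by fun_prop
  have hint := integral_poly (τ := τ) (d := d) (b := r * W) hτ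
  have hpnn : ∀ t ∈ Ioo 0 τ, 0 ≤ p t := by
    intro t ht
    have h1 : 0 ≤ t / τ := (div_pos ht.1 hτ).le
    have h2 : t / τ ≤ 1 := ((div_lt_one hτ).2 ht.2).le
    have h3 : 0 ≤ 1 - t / τ := by linarith
    positivity
  have e1 : τ * (d / 3 + r * W / 6) = ∫ t in Ioo 0 τ, p t := by
    rw [← hint, intervalIntegral.integral_of_le hτ.le, integral_Ioc_eq_integral_Ioo]
  rw [e1, ofReal_integral_eq_lintegral_ofReal]
  · calc ∫⁻ t in Ioo 0 τ, ENNReal.ofReal (p t)
        ≤ ∫⁻ t in Ioo 0 τ, volume ((fun y : ℝ × ℝ => (y, t)) ⁻¹' chordRegion K τ) := by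
          apply setLIntegral_mono' measurableSet_Ioo
          intro t ht
          have : (fun y : ℝ × ℝ => (y, t)) ⁻¹' chordRegion K τ = chordSet K t := by
            ext y
            simp only [chordRegion, mem_preimage, mem_ofPred_eq]
            exact ⟨fun h => h.2, fun h => ⟨⟨ht.1.le, ht.2.le⟩, h⟩⟩
          rw [this]
          exact volume_chordSet_ge hK hconv hτ hr h0 h1 ht
      _ ≤ ∫⁻ t, volume ((fun y : ℝ × ℝ => (y, t)) ⁻¹' chordRegion K τ) := setLIntegral_le_lintegral _ _
      _ = volume (chordRegion K τ) := by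
          exact (Measure.prod_apply_symm (μ := (volume : Measure (ℝ × ℝ)))
            (ν := (volume : Measure ℝ)) (isCompact_chordRegion hK τ).measurableSet).symm
      _ ≤ volume K := volume_chordRegion_le hK hconv τ
  · exact (hp.continuousOn.integrableOn_Icc (a := 0) (b := τ)).mono_set Ioo_subset_Icc_self
  · filter_upwards [ae_restrict_mem measurableSet_Ioo] with t ht
    exact hpnn t ht

end Vale.Agent.P243
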