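import Vale.Agent.P243.Normal

open MeasureTheory Set Metric Filter Topology Module
open scoped ENNReal Pointwise RealInnerProductSpace

namespace Vale.Agent.P243

/-- A continuous linear equivalence of finite dimensional inner product spaces multiplies volumes
by a constant. -/
lemma exists_scale {V W : Type*} [NormedAddCommGroup V] [InnerProductSpace ℝ V]
    [FiniteDimensional ℝ V] [MeasurableSpace V] [BorelSpace V]
    [NormedAddCommGroup W] [InnerProductSpace ℝ W]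
    [FiniteDimensional ℝ W] [MeasurableSpace W] [BorelSpace W] (Ψ : V ≃L[ℝ] W) :
    ∃ κ : ℝ≥0∞, κ ≠ 0 ∧ κ ≠ ⊤ ∧ ∀ S : Set V, volume (Ψ '' S) = κ * volume S := by
  let e : W ≃ᵐ V := Ψ.symm.toHomeomorph.toMeasurableEquiv
  let μ : Measure V := Measure.map e volume
  have hμ : μ.IsAddHaarMeasure := Ψ.symm.isAddHaarMeasure_map volume
  have hc := Measure.isAddLeftInvariant_eq_smul μ (volume : Measure V)
  have hpos := Measure.addHaarScalarFactor_pos_of_isAddHaarMeasure μ (volume : Measure V)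
  refine ⟨(Measure.addHaarScalarFactor μ (volume : Measure V) : ℝ≥0∞), ?_, ENNReal.coe_ne_top, ?_⟩
  · simpa using hpos.ne'
  · intro S
    have h1 : μ S = volume (e ⁻¹' S) := e.map_apply S
    have h2 : e ⁻¹' S = Ψ '' S := by
      ext y
      constructor
      · intro hy
        exact ⟨e y, hy, Ψ.apply_symm_apply y⟩
      · rintro ⟨x, hx, rfl⟩
        show Ψ.symm (Ψ x) ∈ S
        rwa [Ψ.symm_apply_apply]
    rw [← h2, ← h1]
    conv_lhs => rw [hc]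
    rfl

lemma transform_direction (T₀ : E3 ≃L[ℝ] E3) (c : E3) {u : E3} (hu : ‖u‖ = 1) :
    ∃ (u' : E3) (Ψ : (ℝ ∙ u)ᗮ → (ℝ ∙ u')ᗮ) (κ : ℝ≥0∞), ‖u'‖ = 1 ∧ κ ≠ 0 ∧ κ ≠ ⊤ ∧
      (∀ x, (ℝ ∙ u')ᗮ.orthogonalProjectionOnto (T₀ x + c)
        = Ψ ((ℝ ∙ u)ᗮ.orthogonalProjectionOnto x)) ∧
      ∀ S, volume (Ψ '' S) = κ * volume S := by
  have hu0 : u ≠ 0 := by
    intro h; rw [h] at hu; simp at hu
  set w := T₀ u with hw
  have hw0 : w ≠ 0 := by
    intro h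
    exact hu0 (T₀.map_eq_zero_iff.1 h)
  have hwn : ‖w‖ ≠ 0 := norm_ne_zero_iff.2 hw0
  set u' := ‖w‖⁻¹ • w with hu'
  have hu'n : ‖u'‖ = 1 := by
    rw [hu', norm_smul, norm_inv, norm_norm, inv_mul_cancel₀ hwn]
  have hu'0 : u' ≠ 0 := by
    intro h; rw [h] at hu'n; simp at hu'n
  set π := (ℝ ∙ u)ᗮ.orthogonalProjectionOnto with hπ
  set π' := (ℝ ∙ u')ᗮ.orthogonalProjectionOnto with hπ'
  have hπ'u' : π' u' = 0 := Submodule.orthogonalProjectionOnto_orthogonalComplement_singleton_eq_zero u'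
  have hπ'w : π' w = 0 := by
    have : w = ‖w‖ • u' := by
      rw [hu', smul_smul, mul_inv_cancel₀ hwn, one_smul]
    rw [this, map_smul, hπ'u', smul_zero]
  let Ψ₀ₗ : (ℝ ∙ u)ᗮ →ₗ[ℝ] (ℝ ∙ u')ᗮ := (π'.comp (T₀ : E3 →L[ℝ] E3)).toLinearMap.comp (ℝ ∙ u)ᗮ.subtype
  have hΨ₀ : ∀ y : (ℝ ∙ u)ᗮ, Ψ₀ₗ y = π' (T₀ (y : E3)) := fun y => rfl
  have hinj : Function.Injective Ψ₀ₗ := by
    rw [← LinearMap.ker_eq_bot, LinearMap.ker_eq_bot']
    intro y hy
    rw [hΨ₀] at hy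
    have h1 : T₀ (y : E3) ∈ (ℝ ∙ u')ᗮᗮ := by
      rw [Submodule.orthogonalProjectionOnto_eq_zero_iff] at hy
      exact hy
    rw [Submodule.orthogonal_orthogonal, Submodule.mem_span_singleton] at h1
    obtain ⟨a, ha⟩ := h1
    have h2 : T₀ (y : E3) = T₀ ((a * ‖w‖⁻¹) • u) := by
      rw [← ha, map_smul, hu', smul_smul]
    have h3 : (y : E3) = (a * ‖w‖⁻¹) • u := T₀.injective h2
    have h4 : (y : E3) ∈ (ℝ ∙ u)ᗮ := y.2
    rw [Submodule.mem_orthogonal_singleton_iff_inner_right] at h4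
    rw [h3, inner_smul_right, real_inner_self_eq_norm_sq, hu] at h4
    have h5 : a * ‖w‖⁻¹ = 0 := by simpa using h4
    have h6 : (y : E3) = 0 := by rw [h3, h5, zero_smul]
    exact Subtype.ext h6
  have hfin : finrank ℝ (ℝ ∙ u)ᗮ = finrank ℝ (ℝ ∙ u')ᗮ := by
    rw [finrank_perp hu, finrank_perp hu'n]
  let Ψ₀ : (ℝ ∙ u)ᗮ ≃L[ℝ] (ℝ ∙ u')ᗮ := (LinearEquiv.ofInjectiveOfFinrankEq Ψ₀ₗ hinj hfin).toContinuousLinearEquiv
  have hΨ₀' : ∀ y : (ℝ ∙ u)ᗮ, Ψ₀ y = π' (T₀ (y : E3)) := fun y => rfl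
  obtain ⟨κ, hκ0, hκt, hκ⟩ := exists_scale Ψ₀
  refine ⟨u', fun y => Ψ₀ y + π' c, κ, hu'n, hκ0, hκt, ?_, ?_⟩
  · intro x
    show π' (T₀ x + c) = Ψ₀ (π x) + π' c
    rw [map_add, hΨ₀']
    congr 1
    -- `x - π x` is a multiple of `u`
    have h1 : x - (π x : E3) ∈ (ℝ ∙ u) := by
      have := Submodule.sub_starProjection_mem_orthogonal (K := (ℝ ∙ u)ᗮ) x
      rwa [Submodule.orthogonal_orthogonal] at this
    rw [Submodule.mem_span_singleton] at h1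
    obtain ⟨a, ha⟩ := h1
    have h2 : x = (π x : E3) + a • u := by rw [ha]; abel
    conv_lhs => rw [h2]
    rw [map_add, map_add, map_smul, map_smul, ← hw, hπ'w, smul_zero, add_zero]
  · intro S
    have : (fun y => Ψ₀ y + π' c) '' S = (fun z => z + π' c) '' (Ψ₀ '' S) := by
      rw [image_image]
    rw [this, image_add_right, measure_preimage_add_right, hκ]

/-- The main inequality is affine invariant. -/
theorem bound_of_normalization {K : Set E3} {T₀ : E3 ≃L[ℝ] E3} {c : E3}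
    (hN : Normalized ((fun x => T₀ x + c) '' K))
    (hV : volume.real ((fun x => T₀ x + c) '' K) ≤ 2744) {ι : Type*} [Fintype ι]
    (u : ι → E3) (hu : ∀ i, ‖u i‖ = 1) (B : ∀ i, Set (ℝ ∙ u i)ᗮ)
    (hcov : ∀ x ∈ K, ∃ i, (ℝ ∙ u i)ᗮ.orthogonalProjectionOnto x ∈ B i) :
    ENNReal.ofReal (1 / 3 + 1e-18) ≤
      ∑ i, volume (B i) / volume ((ℝ ∙ u i)ᗮ.orthogonalProjectionOnto '' K) := by
  choose u' Ψ κ hu' hκ0 hκt hΨ hvol using fun i => transform_direction T₀ c (hu i)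
  have hcov' : ∀ x ∈ (fun x => T₀ x + c) '' K,
      ∃ i, (ℝ ∙ u' i)ᗮ.orthogonalProjectionOnto x ∈ Ψ i '' B i := by
    rintro _ ⟨x, hx, rfl⟩
    obtain ⟨i, hi⟩ := hcov x hx
    refine ⟨i, ?_⟩
    show (ℝ ∙ u' i)ᗮ.orthogonalProjectionOnto (T₀ x + c) ∈ _
    rw [hΨ]
    exact mem_image_of_mem _ hi
  have h := normalized_bound hN hV u' hu' (fun i => Ψ i '' B i) hcov'
  refine h.trans (le_of_eq ?_)
  refine Finset.sum_congr rfl fun i _ => ?_
  have e1 : (ℝ ∙ u' i)ᗮ.orthogonalProjectionOnto '' ((fun x => T₀ x + c) '' K)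
      = Ψ i '' ((ℝ ∙ u i)ᗮ.orthogonalProjectionOnto '' K) := by
    rw [image_image, image_image]
    exact image_congr fun x _ => hΨ i x
  rw [e1, hvol, hvol, ENNReal.mul_div_mul_left _ _ (hκ0 i) (hκt i)]

end Vale.Agent.P243
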