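import Mathlib

open MeasureTheory Set Metric Filter Topology
open scoped ENNReal Pointwise RealInnerProductSpace

namespace Vale.Agent.P243

abbrev E3 := EuclideanSpace ℝ (Fin 3)

/-- A convex compact set containing the closed unit ball. -/
structure Normalized (K : Set E3) : Prop where
  convex : Convex ℝ K
  compact : IsCompact K
  ball : closedBall (0 : E3) 1 ⊆ K

namespace Normalized

variable {K : Set E3} (hK : Normalized K)
include hK

lemma nhds_zero : K ∈ 𝓝 (0 : E3) :=
  mem_of_superset (closedBall_mem_nhds _ one_pos) hK.ball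

lemma absorbent : Absorbent ℝ K := absorbent_nhds_zero hK.nhds_zero

lemma zero_mem : (0 : E3) ∈ K := mem_of_mem_nhds hK.nhds_zero

lemma g_add (x y : E3) : gauge K (x + y) ≤ gauge K x + gauge K y :=
  gauge_add_le hK.convex hK.absorbent x y

lemma g_smul {r : ℝ} (hr : 0 ≤ r) (x : E3) : gauge K (r • x) = r * gauge K x := by
  rw [gauge_smul_of_nonneg hr, smul_eq_mul]

lemma g_le_norm (x : E3) : gauge K x ≤ ‖x‖ := by
  have := mul_gauge_le_norm (s := K) (r := 1) (x := x) (ball_subset_closedBall.trans hK.ball)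
  simpa using this

lemma g_cont : Continuous (gauge K) := continuous_gauge hK.convex hK.nhds_zero

lemma mem_iff {x : E3} : x ∈ K ↔ gauge K x ≤ 1 := by
  rw [gauge_le_one_iff_mem_closure hK.convex hK.nhds_zero, hK.compact.isClosed.closure_eq]

lemma mem_smul_iff {t : ℝ} (ht : 0 < t) {x : E3} : x ∈ t • K ↔ gauge K x ≤ t := by
  rw [mem_smul_set_iff_inv_smul_mem₀ ht.ne', hK.mem_iff, hK.g_smul (inv_pos.2 ht).le,
    inv_mul_le_iff₀ ht, mul_one]

lemma g_convexOn : ConvexOn ℝ univ (gauge K) := by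
  refine ⟨convex_univ, ?_⟩
  intro x _ y _ a b ha hb _
  calc gauge K (a • x + b • y) ≤ gauge K (a • x) + gauge K (b • y) := hK.g_add _ _
    _ = a • gauge K x + b • gauge K y := by
      rw [hK.g_smul ha, hK.g_smul hb]; rfl

end Normalized

/-- The second difference of the gauge of `K` at `x` with increment `w`. -/
noncomputable def sec (K : Set E3) (x w : E3) : ℝ :=
  gauge K (x + w) + gauge K (x - w) - 2 * gauge K x

namespace Normalized

variable {K : Set E3} (hK : Normalized K)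
include hK

lemma sec_nonneg (x w : E3) : 0 ≤ sec K x w := by
  have h := hK.g_add (x + w) (x - w)
  have h2 : (x + w) + (x - w) = (2 : ℝ) • x := by
    rw [two_smul]; abel
  rw [h2, hK.g_smul (by norm_num)] at h
  unfold sec
  linarith

lemma sec_neg (x w : E3) : sec K x (-w) = sec K x w := by
  unfold sec
  rw [sub_neg_eq_add, ← sub_eq_add_neg]
  ring

lemma sec_scale {s : ℝ} (h0 : 0 ≤ s) (h1 : s ≤ 1) (x w : E3) : sec K x (s • w) ≤ s * sec K x w := by
  have h2 : x + s • w = s • (x + w) + (1 - s) • x := by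
    rw [smul_add, sub_smul, one_smul]; abel
  have h3 : x - s • w = s • (x - w) + (1 - s) • x := by
    rw [smul_sub, sub_smul, one_smul]; abel
  have h4 := hK.g_add (s • (x + w)) ((1 - s) • x)
  have h5 := hK.g_add (s • (x - w)) ((1 - s) • x)
  rw [← h2, hK.g_smul h0, hK.g_smul (by linarith)] at h4
  rw [← h3, hK.g_smul h0, hK.g_smul (by linarith)] at h5
  unfold sec
  nlinarith

lemma sec_smul_smul {r : ℝ} (hr : 0 ≤ r) (x w : E3) : sec K (r • x) (r • w) = r * sec K x w := by
  unfold sec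
  rw [← smul_add, ← smul_sub, hK.g_smul hr, hK.g_smul hr, hK.g_smul hr]
  ring

lemma sec_add3 (x a b c : E3) :
    sec K x (a + b + c) ≤ (1 / 3) * (sec K x ((3 : ℝ) • a) + sec K x ((3 : ℝ) • b) + sec K x ((3 : ℝ) • c)) := by
  have e1 : (3 : ℝ) • (x + (a + b + c)) = (x + (3 : ℝ) • a) + (x + (3 : ℝ) • b) + (x + (3 : ℝ) • c) := by
    simp only [smul_add, show (3 : ℝ) = 1 + 1 + 1 by norm_num, add_smul, one_smul]
    abel
  have e2 : (3 : ℝ) • (x - (a + b + c)) = (x - (3 : ℝ) • a) + (x - (3 : ℝ) • b) + (x - (3 : ℝ) • c) := by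
    simp only [smul_add, smul_sub, show (3 : ℝ) = 1 + 1 + 1 by norm_num, add_smul, one_smul]
    abel
  have h1 := hK.g_add ((x + (3 : ℝ) • a) + (x + (3 : ℝ) • b)) (x + (3 : ℝ) • c)
  have h2 := hK.g_add (x + (3 : ℝ) • a) (x + (3 : ℝ) • b)
  have h3 := hK.g_add ((x - (3 : ℝ) • a) + (x - (3 : ℝ) • b)) (x - (3 : ℝ) • c)
  have h4 := hK.g_add (x - (3 : ℝ) • a) (x - (3 : ℝ) • b)
  rw [← e1, hK.g_smul (by norm_num)] at h1
  rw [← e2, hK.g_smul (by norm_num)] at h3
  unfold sec
  linarith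

lemma sec_cont (w : E3) : Continuous fun x => sec K x w := by
  have := hK.g_cont
  unfold sec
  fun_prop

end Normalized

/-- The sum of three coordinate second differences. -/
noncomputable def lam (K : Set E3) (σ : ℝ) (x : E3) : ℝ :=
  ∑ i : Fin 3, sec K x ((3 * σ) • EuclideanSpace.single i (1 : ℝ))

namespace Normalized

variable {K : Set E3} (hK : Normalized K)
include hK

lemma sec_single_le {σ t : ℝ} (hσ : 0 < σ) (ht : |t| ≤ σ) (x : E3) (i : Fin 3) :
    sec K x ((3 : ℝ) • (t • EuclideanSpace.single i (1 : ℝ)))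
      ≤ sec K x ((3 * σ) • EuclideanSpace.single i (1 : ℝ)) := by
  set e : E3 := EuclideanSpace.single i (1 : ℝ)
  set s := |t| / σ with hs
  have hs0 : 0 ≤ s := by positivity
  have hs1 : s ≤ 1 := by rw [hs, div_le_one hσ]; exact ht
  have hmain : sec K x (s • ((3 * σ) • e)) ≤ sec K x ((3 * σ) • e) := by
    refine (hK.sec_scale hs0 hs1 x _).trans ?_
    have := hK.sec_nonneg x ((3 * σ) • e)
    nlinarith
  have e1 : s • ((3 * σ) • e) = (3 * |t|) • e := by
    rw [smul_smul, hs]; congr 1; field_simp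
  rw [e1] at hmain
  rcases abs_cases t with ⟨h, _⟩ | ⟨h, _⟩
  · rw [h] at hmain
    rwa [smul_smul]
  · rw [h] at hmain
    rw [smul_smul]
    rw [← hK.sec_neg, ← neg_smul] 
    convert hmain using 3
    ring

lemma sec_le_lam {σ : ℝ} (hσ : 0 < σ) (x : E3) {w : E3} (hw : ‖w‖ ≤ σ) :
    sec K x w ≤ (1 / 3) * lam K σ x := by
  have hc : ∀ i, |w i| ≤ σ := by
    intro i
    refine le_trans ?_ hw
    simpa [Real.norm_eq_abs] using PiLp.norm_apply_le (p := 2) w i
  have e : w = (w 0) • (EuclideanSpace.single 0 (1 : ℝ) : E3)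
      + (w 1) • (EuclideanSpace.single 1 (1 : ℝ) : E3)
      + (w 2) • (EuclideanSpace.single 2 (1 : ℝ) : E3) := by
    ext i
    fin_cases i <;> simp
  have h := hK.sec_add3 x ((w 0) • (EuclideanSpace.single 0 (1 : ℝ) : E3))
    ((w 1) • (EuclideanSpace.single 1 (1 : ℝ) : E3)) ((w 2) • (EuclideanSpace.single 2 (1 : ℝ) : E3))
  rw [← e] at h
  have h0 := hK.sec_single_le hσ (hc 0) x 0
  have h1 := hK.sec_single_le hσ (hc 1) x 1
  have h2 := hK.sec_single_le hσ (hc 2) x 2
  unfold lam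
  rw [Fin.sum_univ_three]
  linarith

end Normalized

end Vale.Agent.P243
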